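import Vale.Agent.P065.U.H792.Front

/-! P065: the cell lemma for a subset of the points (helper671) -/

set_option autoImplicit false

namespace Vale.Agent.P065.R2.H671

open Finset Vale.Agent.P065.U.H792 Vale.Agent.P065.UB

section cells

variable {w m : ℕ} (F : Fam w m) (S : Finset ℕ)

open Classical in
/-- number of earlier points of `S` of the same row -/
noncomputable def idS (M θ a : ℕ) : ℕ := #{b ∈ S | b < a ∧ F.row M θ b = F.row M θ a}

theorem idS_lt {M θ a b : ℕ} (hab : a < b) (ha : a ∈ S) (hr : F.row M θ a = F.row M θ b) :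
    idS F S M θ a < idS F S M θ b := by
  classical
  unfold idS
  apply Finset.card_lt_card
  refine ⟨?_, ?_⟩
  · intro x hx
    obtain ⟨h1, h2, h3⟩ := mem_filter.mp hx
    exact mem_filter.mpr ⟨h1, h2.trans hab, h3.trans hr⟩
  · intro hsub
    have := hsub (mem_filter.mpr ⟨ha, hab, hr⟩)
    exact lt_irrefl _ (mem_filter.mp this).2.1

theorem idS_le {M θ a b : ℕ} (hab : a < b) (hr : F.row M θ a = F.row M θ b) :
    idS F S M θ a ≤ idS F S M θ b := by
  classical
  unfold idS
  apply Finset.card_le_card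
  intro x hx
  obtain ⟨h1, h2, h3⟩ := mem_filter.mp hx
  exact mem_filter.mpr ⟨h1, h2.trans hab, h3.trans hr⟩

theorem idS_inj {M θ a b : ℕ} (ha : a ∈ S) (hb : b ∈ S) (hr : F.row M θ a = F.row M θ b)
    (hi : idS F S M θ a = idS F S M θ b) : a = b := by
  rcases lt_trichotomy a b with h | h | h
  · exact absurd hi (idS_lt F S h ha hr).ne
  · exact h
  · exact absurd hi (idS_lt F S h hb hr.symm).ne'

/-- the index takes every smaller value on the row -/
theorem exists_idS {M θ z k : ℕ} (hk : k < idS F S M θ z) :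
    ∃ p, p ∈ S ∧ p < z ∧ F.row M θ p = F.row M θ z ∧ idS F S M θ p = k := by
  classical
  obtain ⟨ρ, hρ⟩ : ∃ ρ, F.row M θ z = ρ := ⟨_, rfl⟩
  have key : ∀ x, k < #{b ∈ S | b < x ∧ F.row M θ b = ρ} →
      ∃ p, p ∈ S ∧ p < x ∧ F.row M θ p = ρ ∧ idS F S M θ p = k := by
    intro x
    induction x with
    | zero =>
      intro h
      have h0 : ({b ∈ S | b < 0 ∧ F.row M θ b = ρ} : Finset ℕ) = ∅ := by
        rw [Finset.filter_eq_empty_iff]
        intro b _ hb
        exact Nat.not_lt_zero _ hb.1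
      rw [h0, card_empty] at h
      omega
    | succ x ih =>
      intro h
      by_cases h2 : k < #{b ∈ S | b < x ∧ F.row M θ b = ρ}
      · obtain ⟨p, hp0, hp1, hp2⟩ := ih h2
        exact ⟨p, hp0, by omega, hp2⟩
      by_cases h1 : x ∈ S ∧ F.row M θ x = ρ
      · refine ⟨x, h1.1, by omega, h1.2, ?_⟩
        have h3 : idS F S M θ x = #{b ∈ S | b < x ∧ F.row M θ b = ρ} := by
          unfold idS
          rw [h1.2]
        have h4 : ({b ∈ S | b < x + 1 ∧ F.row M θ b = ρ} : Finset ℕ) ⊆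
            insert x ({b ∈ S | b < x ∧ F.row M θ b = ρ} : Finset ℕ) := by
          intro b hb
          obtain ⟨g1, g2, g3⟩ := mem_filter.mp hb
          rcases Nat.lt_succ_iff_lt_or_eq.mp g2 with h | h
          · exact mem_insert_of_mem (mem_filter.mpr ⟨g1, h, g3⟩)
          · rw [h]
            exact mem_insert_self _ _
        have h5 := (card_le_card h4).trans (card_insert_le _ _)
        omega
      · exfalso
        apply h2
        refine lt_of_lt_of_le h (card_le_card ?_)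
        intro b hb
        obtain ⟨g1, g2, g3⟩ := mem_filter.mp hb
        refine mem_filter.mpr ⟨g1, ?_, g3⟩
        rcases Nat.lt_succ_iff_lt_or_eq.mp g2 with h | h
        · exact h
        · rw [h] at g1 g3
          exact absurd ⟨g1, g3⟩ h1
  have h2 : k < #{b ∈ S | b < z ∧ F.row M θ b = ρ} := by
    rw [← hρ]
    exact hk
  rw [hρ]
  exact key z h2

open Classical in
/-- the walls: first points of the blocks -/
noncomputable def ZS (M N θ : ℕ) : Finset ℕ := {z ∈ S | N ∣ idS F S M θ z ∧ 0 < idS F S M θ z}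

theorem card_ZS {M N θ : ℕ} : N * #(ZS F S M N θ) ≤ #S := by
  classical
  have hch : ∀ q : ℕ × ℕ, ∃ p, q.1 ∈ ZS F S M N θ → q.2 < N →
      p ∈ S ∧ F.row M θ p = F.row M θ q.1 ∧ idS F S M θ p + 1 + q.2 = idS F S M θ q.1 := by
    intro q
    by_cases h1 : q.1 ∈ ZS F S M N θ ∧ q.2 < N
    · obtain ⟨h1, h2⟩ := h1
      obtain ⟨_, h3, h4⟩ := mem_filter.mp h1
      have h5 : N ≤ idS F S M θ q.1 := Nat.le_of_dvd h4 h3
      obtain ⟨p, hp0, hp1, hp2, hp3⟩ := exists_idS F S (M := M) (θ := θ) (z := q.1)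
        (k := idS F S M θ q.1 - 1 - q.2) (by omega)
      exact ⟨p, fun _ _ => ⟨hp0, hp2, by omega⟩⟩
    · exact ⟨0, fun h2 h3 => absurd ⟨h2, h3⟩ h1⟩
  choose f hf using hch
  have h1 : #(ZS F S M N θ ×ˢ range N) ≤ #S := by
    apply Finset.card_le_card_of_injOn f
    · intro q hq
      have hq' := mem_product.mp (mem_coe.mp hq)
      exact mem_coe.mpr (hf q hq'.1 (mem_range.mp hq'.2)).1
    · intro q hq q' hq' he
      have hq1 := mem_product.mp (mem_coe.mp hq)
      have hq2 := mem_product.mp (mem_coe.mp hq')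
      have a1 := hf q hq1.1 (mem_range.mp hq1.2)
      have a2 := hf q' hq2.1 (mem_range.mp hq2.2)
      have b1 := mem_range.mp hq1.2
      have b2 := mem_range.mp hq2.2
      obtain ⟨s1, c1, c1'⟩ := mem_filter.mp hq1.1
      obtain ⟨s2, c2, c2'⟩ := mem_filter.mp hq2.1
      have d : F.row M θ q.1 = F.row M θ q'.1 := by rw [← a1.2.1, ← a2.2.1, he]
      have e : idS F S M θ q.1 = idS F S M θ q'.1 ∧ q.2 = q'.2 := by
        have e1 : idS F S M θ (f q) = idS F S M θ (f q') := by rw [he]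
        obtain ⟨u, hu⟩ := c1
        obtain ⟨v, hv⟩ := c2
        have e2 : N * u = idS F S M θ (f q) + 1 + q.2 := by omega
        have e3 : N * v = idS F S M θ (f q) + 1 + q'.2 := by omega
        have e4 : u = v := by
          rcases lt_trichotomy u v with h | h | h
          · have : N * (u + 1) ≤ N * v := Nat.mul_le_mul_left _ h
            rw [Nat.mul_add] at this
            omega
          · exact h
          · have : N * (v + 1) ≤ N * u := Nat.mul_le_mul_left _ h
            rw [Nat.mul_add] at this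
            omega
        subst e4
        omega
      have := idS_inj F S s1 s2 d e.1
      exact Prod.ext this e.2
  rw [card_product, card_range] at h1
  linarith [Nat.mul_comm N #(ZS F S M N θ)]

/-- cell of the point `a` -/
noncomputable def cellS (M N θ a : ℕ) : ℕ × ℕ := (F.row M θ a, idS F S M θ a / N)

theorem card_cellS_le {M N θ : ℕ} (hN : 0 < N) (q : ℕ × ℕ) :
    #{a ∈ S | cellS F S M N θ a = q} ≤ N := by
  classical
  have h1 : #{a ∈ S | cellS F S M N θ a = q} ≤ #(Ico (q.2 * N) (q.2 * N + N)) := by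
    apply Finset.card_le_card_of_injOn (idS F S M θ)
    · intro a ha
      have ha' := (mem_filter.mp (mem_coe.mp ha)).2
      have h2 : idS F S M θ a / N = q.2 := by rw [← ha']; rfl
      have h3 := Nat.div_add_mod (idS F S M θ a) N
      have h4 := Nat.mod_lt (idS F S M θ a) hN
      rw [h2] at h3
      simp only [coe_Ico, Set.mem_Ico]
      have h5 : N * q.2 = q.2 * N := Nat.mul_comm _ _
      omega
    · intro a ha b hb he
      obtain ⟨sa, ha'⟩ := mem_filter.mp (mem_coe.mp ha)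
      obtain ⟨sb, hb'⟩ := mem_filter.mp (mem_coe.mp hb)
      have h2 : F.row M θ a = F.row M θ b := by
        have := ha'.trans hb'.symm
        exact congrArg Prod.fst this
      exact idS_inj F S sa sb h2 he
  simpa using h1

/-- a tame edge between different cells crosses a wall of its row -/
theorem exists_wallS {M N θ : ℕ} (hN : 0 < N) {e : Fin m × ℕ × ℕ} (he : e ∈ F.edges)
    (hs1 : e.2.1 ∈ S) (hs2 : e.2.2 ∈ S)
    (h0 : F.cost M θ e = 0) (hc : cellS F S M N θ e.2.1 ≠ cellS F S M N θ e.2.2) :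
    ∃ z, z ∈ ZS F S M N θ ∧ e.2.1 < z ∧ z ≤ e.2.2 ∧ F.live z e.1 ∧
      F.kap M θ z e.1 = F.row M θ z := by
  classical
  obtain ⟨⟨hw1, hw2⟩, hv1, hv2, hlt, _⟩ := F.mem_edges.mp he
  have hr := F.row_eq hlt h0
  have hk := F.kap_const hlt h0
  have h1 : idS F S M θ e.2.1 < idS F S M θ e.2.2 := idS_lt F S hlt hs1 hr.symm
  have h2 : idS F S M θ e.2.1 / N ≠ idS F S M θ e.2.2 / N := by
    intro h
    apply hc
    unfold cellS
    rw [hr, h]
  have h3 : idS F S M θ e.2.1 / N < idS F S M θ e.2.2 / N :=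
    lt_of_le_of_ne (Nat.div_le_div_right h1.le) h2
  obtain ⟨k, hkd⟩ : ∃ k, k = N * (idS F S M θ e.2.2 / N) := ⟨_, rfl⟩
  have hk1 : k ≤ idS F S M θ e.2.2 := by
    rw [hkd]
    exact Nat.mul_div_le _ _
  have hk2 : idS F S M θ e.2.1 < k := by
    have := (Nat.div_lt_iff_lt_mul hN).mp h3
    rw [hkd, Nat.mul_comm]
    exact this
  have hz : ∃ z, z ∈ S ∧ z ≤ e.2.2 ∧ F.row M θ z = F.row M θ e.2.2 ∧ idS F S M θ z = k := by
    rcases hk1.lt_or_eq with h3 | h3
    · obtain ⟨p, hp0, hp1, hp2, hp3⟩ := exists_idS F S h3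
      exact ⟨p, hp0, hp1.le, hp2, hp3⟩
    · exact ⟨e.2.2, hs2, le_rfl, rfl, h3.symm⟩
  obtain ⟨z, hz0, hz1, hz2, hz3⟩ := hz
  have hz4 : e.2.1 < z := by
    by_contra hcon
    rcases (not_lt.mp hcon).lt_or_eq with h5 | h5
    · have := idS_le F S h5 (hz2.trans hr)
      omega
    · rw [h5] at hz3
      omega
  have hl1 := F.hV _ _ hv1
  have hl2 := F.hV _ _ hv2
  refine ⟨z, ?_, hz4, hz1, ⟨by omega, by omega⟩, ?_⟩
  · unfold ZS
    exact mem_filter.mpr ⟨hz0, by rw [hz3, hkd]; exact Dvd.intro _ rfl, by omega⟩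
  · rw [hk z hz4.le hz1, hz2, hr]

/-- number of tame edges between different cells -/
theorem card_tameS_le {M N θ : ℕ} (hM : 0 < M) (hN : 0 < N) [DecidablePred fun e : Fin m × ℕ × ℕ =>
      (e.2.1 ∈ S ∧ e.2.2 ∈ S) ∧ F.cost M θ e = 0 ∧
        cellS F S M N θ e.2.1 ≠ cellS F S M N θ e.2.2] :
    #{e ∈ F.edges | (e.2.1 ∈ S ∧ e.2.2 ∈ S) ∧ F.cost M θ e = 0 ∧
      cellS F S M N θ e.2.1 ≠ cellS F S M N θ e.2.2} ≤ M * (#S / N) := by
  classical
  have hch : ∀ e : Fin m × ℕ × ℕ, ∃ z, e ∈ F.edges → ((e.2.1 ∈ S ∧ e.2.2 ∈ S) ∧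
      F.cost M θ e = 0 ∧ cellS F S M N θ e.2.1 ≠ cellS F S M N θ e.2.2) →
        z ∈ ZS F S M N θ ∧ e.2.1 < z ∧ z ≤ e.2.2 ∧
        F.live z e.1 ∧ F.kap M θ z e.1 = F.row M θ z := by
    intro e
    by_cases h : e ∈ F.edges ∧ ((e.2.1 ∈ S ∧ e.2.2 ∈ S) ∧ F.cost M θ e = 0 ∧
        cellS F S M N θ e.2.1 ≠ cellS F S M N θ e.2.2)
    · obtain ⟨z, hz⟩ := exists_wallS F S hN h.1 h.2.1.1 h.2.1.2 h.2.2.1 h.2.2.2
      exact ⟨z, fun _ _ => hz⟩
    · exact ⟨0, fun h1 h2 => absurd ⟨h1, h2⟩ h⟩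
  choose f hf using hch
  have h1 : #{e ∈ F.edges | (e.2.1 ∈ S ∧ e.2.2 ∈ S) ∧ F.cost M θ e = 0 ∧
      cellS F S M N θ e.2.1 ≠ cellS F S M N θ e.2.2} ≤
      #((ZS F S M N θ).sigma (fun z => ({c ∈ (univ : Finset (Fin m)) |
        (F.s c ≤ z ∧ z ≤ F.t c) ∧ F.kap M θ z c = F.row M θ z} : Finset _))) := by
    apply Finset.card_le_card_of_injOn (fun e => ⟨f e, e.1⟩)
    · intro e he
      obtain ⟨he1, he2⟩ := mem_filter.mp (mem_coe.mp he)
      have h2 := hf e he1 he2
      rw [mem_coe, mem_sigma]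
      exact ⟨h2.1, mem_filter.mpr ⟨mem_univ _, h2.2.2.2.1, h2.2.2.2.2⟩⟩
    · intro e he e' he' hee
      obtain ⟨he1, he2⟩ := mem_filter.mp (mem_coe.mp he)
      obtain ⟨he1', he2'⟩ := mem_filter.mp (mem_coe.mp he')
      have h2 := hf e he1 he2
      have h2' := hf e' he1' he2'
      simp only [Sigma.mk.injEq, heq_eq_eq] at hee
      obtain ⟨g1, g2⟩ := hee
      have := h2.2.1
      have := h2.2.2.1
      have := h2'.2.1
      have := h2'.2.2.1
      exact F.edge_unique he1 he1' g2 (i := f e - 1) (by omega) (by omega) (by omega) (by omega)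
  refine h1.trans ?_
  rw [Finset.card_sigma]
  calc ∑ z ∈ ZS F S M N θ, #({c ∈ (univ : Finset (Fin m)) |
        (F.s c ≤ z ∧ z ≤ F.t c) ∧ F.kap M θ z c = F.row M θ z} : Finset _)
      ≤ ∑ _z ∈ ZS F S M N θ, M := Finset.sum_le_sum fun z _ => by
          convert F.card_wall_le M θ hM z using 2
    _ = #(ZS F S M N θ) * M := by rw [Finset.sum_const, smul_eq_mul]
    _ ≤ M * (#S / N) := by
        have h2 := card_ZS F S (M := M) (N := N) (θ := θ)
        have h3 : #(ZS F S M N θ) ≤ #S / N := by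
          rw [Nat.le_div_iff_mul_le hN]
          linarith [Nat.mul_comm N #(ZS F S M N θ)]
        rw [Nat.mul_comm]
        exact Nat.mul_le_mul_left _ h3

open Classical in
/-- **Cell lemma** for the points of `S`. -/
theorem cellsS (M N : ℕ) (hM : 0 < M) (hN : 0 < N) :
    ∃ cell : ℕ → ℕ × ℕ, (∀ q, #{a ∈ S | cell a = q} ≤ N) ∧
      M * #{e ∈ F.edges | (e.2.1 ∈ S ∧ e.2.2 ∈ S) ∧ cell e.2.1 ≠ cell e.2.2} ≤
        F.alt + 2 * m ^ 2 + 2 * F.meet + M * (M * (#S / N)) := by
  obtain ⟨θ, hθ, hle⟩ : ∃ θ ∈ range M, M * ∑ e ∈ F.edges, F.cost M θ e ≤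
      F.alt + 2 * m ^ 2 + 2 * F.meet := by
    by_contra hcon
    push Not at hcon
    have h1 := F.total_cost_le M hM
    have h2 : ∑ _θ ∈ range M, (F.alt + 2 * m ^ 2 + 2 * F.meet) <
        ∑ θ ∈ range M, M * ∑ e ∈ F.edges, F.cost M θ e := by
      apply Finset.sum_lt_sum_of_nonempty
      · exact ⟨0, mem_range.mpr hM⟩
      · exact hcon
    rw [← Finset.mul_sum, Finset.sum_const, card_range, smul_eq_mul] at h2
    exact absurd (Nat.mul_le_mul_left M h1) (not_le.mpr h2)
  refine ⟨cellS F S M N θ, fun q => ?_, ?_⟩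
  · convert card_cellS_le F S (M := M) (N := N) (θ := θ) hN q using 2
  have h1 : #{e ∈ F.edges | (e.2.1 ∈ S ∧ e.2.2 ∈ S) ∧
      cellS F S M N θ e.2.1 ≠ cellS F S M N θ e.2.2} ≤
      ∑ e ∈ F.edges, F.cost M θ e + M * (#S / N) := by
    have h2 : ({e ∈ F.edges | (e.2.1 ∈ S ∧ e.2.2 ∈ S) ∧
        cellS F S M N θ e.2.1 ≠ cellS F S M N θ e.2.2} : Finset _) ⊆
        ({e ∈ F.edges | F.cost M θ e ≠ 0} : Finset _) ∪
        ({e ∈ F.edges | (e.2.1 ∈ S ∧ e.2.2 ∈ S) ∧ F.cost M θ e = 0 ∧
          cellS F S M N θ e.2.1 ≠ cellS F S M N θ e.2.2} : Finset _) := by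
      intro e he
      obtain ⟨he1, he2, he3⟩ := mem_filter.mp he
      by_cases h3 : F.cost M θ e = 0
      · exact mem_union_right _ (mem_filter.mpr ⟨he1, he2, h3, he3⟩)
      · exact mem_union_left _ (mem_filter.mpr ⟨he1, h3⟩)
    refine (card_le_card h2).trans ((card_union_le _ _).trans (Nat.add_le_add ?_ ?_))
    · rw [Finset.card_filter]
      apply Finset.sum_le_sum
      intro e _
      split_ifs with h3
      · omega
      · omega
    · exact card_tameS_le F S hM hN
  calc M * #{e ∈ F.edges | (e.2.1 ∈ S ∧ e.2.2 ∈ S) ∧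
        cellS F S M N θ e.2.1 ≠ cellS F S M N θ e.2.2}
      ≤ M * (∑ e ∈ F.edges, F.cost M θ e + M * (#S / N)) := Nat.mul_le_mul_left _ h1
    _ = M * ∑ e ∈ F.edges, F.cost M θ e + M * (M * (#S / N)) := Nat.mul_add _ _ _
    _ ≤ _ := Nat.add_le_add_right hle _

end cells

/-- **the `k`-edges inside a subset** -/
theorem card_inside {P : Finset Pt} {k : ℕ} (hP : Good P) (D : Finset Pt) [DecidableEq Pt] :
    (#{e ∈ Ed P k | e.1 ∈ D ∧ e.2 ∈ D} : ℝ) ≤ 104 * ((#D : ℝ) * #P) ^ (2 / 3 : ℝ) := by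
  classical
  obtain ⟨m, pt, F, hm, hpt, hX, hE⟩ := stChains P k P Set.univ hP (Finset.Subset.refl _)
    Set.ordConnected_univ
  have hmem := pt_mem (w := #(Tch P k P Set.univ)) rfl hpt
  obtain ⟨ix, hix1, hix2⟩ := transfer (w := #(Tch P k P Set.univ)) rfl hpt hmem
  obtain ⟨T, hT⟩ : ∃ T : Finset Pt, T = Tch P k P Set.univ := ⟨_, rfl⟩
  have hbd : #(EdBd P k P Set.univ) = 0 := by
    rw [Finset.card_eq_zero, Finset.eq_empty_iff_forall_notMem]
    intro e he
    simp only [EdBd, mem_filter] at he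
    have h1 := mem_Ed.mp he.1
    rcases he.2.1 with h2 | h2
    · exact h2.2 h1.2.1
    · exact h2.1 h1.1
  have hTP : #(Tch P k P Set.univ) ≤ #P := card_le_card fun v hv => (mem_Tch.mp hv).1
  obtain ⟨E, hEd⟩ : ∃ E : Finset Eg, E = ({e ∈ Ed P k | e.1 ∈ D ∧ e.2 ∈ D} : Finset Eg) :=
    ⟨_, rfl⟩
  have hEI : ∀ e ∈ E, e ∈ EdIn P k P Set.univ := by
    intro e he
    rw [hEd] at he
    have h1 := (mem_filter.mp he).1
    rw [mem_EdIn]
    obtain ⟨h2, h3, _, _⟩ := mem_Ed.mp h1
    exact ⟨h1, h2, h3, Set.mem_univ _⟩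
  obtain ⟨D', hD'⟩ : ∃ D' : Finset Pt, D' = D ∩ Tch P k P Set.univ := ⟨_, rfl⟩
  have hED : ∀ e ∈ E, e.1 ∈ D' ∧ e.2 ∈ D' := by
    intro e he
    have h1 := edIn_tch e (hEI e he)
    rw [hEd] at he
    have h2 := (mem_filter.mp he).2
    rw [hD']
    exact ⟨mem_inter.mpr ⟨h2.1, h1.1⟩, mem_inter.mpr ⟨h2.2, h1.2⟩⟩
  have hE2 : #E ≤ #D' * #D' := by
    rw [← card_product]
    apply card_le_card
    intro e he
    exact mem_product.mpr (hED e he)
  have hD'D : #D' ≤ #D := by
    rw [hD']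
    exact card_le_card inter_subset_left
  have hD'T : #D' ≤ #(Tch P k P Set.univ) := by
    rw [hD']
    exact card_le_card inter_subset_right
  have hmain : (#E : ℝ) ≤ 104 * ((#D : ℝ) * #P) ^ (2 / 3 : ℝ) := by
    rcases Nat.eq_zero_or_pos #D' with h0 | h0
    · rw [h0] at hE2
      have h1 : #E = 0 := by omega
      rw [h1]
      simp only [Nat.cast_zero]
      positivity
    · have h1 := dey_arith #D' #P #E h0 (hD'T.trans hTP) hE2 (by
        intro H N0 hH hN0
        obtain ⟨S, hS⟩ : ∃ S : Finset ℕ, S =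
          ({i ∈ range #(Tch P k P Set.univ) | pt i ∈ D} : Finset ℕ) := ⟨_, rfl⟩
        have hSD : #S ≤ #D' := by
          apply card_le_card_of_injOn pt
          · intro i hi
            rw [hS] at hi
            obtain ⟨g1, g2⟩ := mem_filter.mp (mem_coe.mp hi)
            rw [hD']
            exact mem_coe.mpr (mem_inter.mpr ⟨g2, hmem i (mem_range.mp g1)⟩)
          · intro i hi j hj hij
            rw [hS] at hi hj
            have g1 := mem_range.mp (mem_filter.mp (mem_coe.mp hi)).1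
            have g2 := mem_range.mp (mem_filter.mp (mem_coe.mp hj)).1
            rw [← hix2 i g1, ← hix2 j g2, hij]
        obtain ⟨cell, hc1, hc2⟩ := cellsS F S H N0 hH hN0
        refine ⟨#{e ∈ E | cell (ix e.1) ≠ cell (ix e.2)}, ?_, ?_⟩
        · have h2 : #{e ∈ E | cell (ix e.1) = cell (ix e.2)} ≤ #D' * N0 :=
            card_same_le (T := D') (E := E) hED (fun v => cell (ix v)) N0 (by
            intro c
            refine le_trans ?_ (hc1 c)
            apply Finset.card_le_card_of_injOn ix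
            · intro v hv
              obtain ⟨g1, g2⟩ := mem_filter.mp (mem_coe.mp hv)
              rw [hD'] at g1
              obtain ⟨g3, g4⟩ := mem_inter.mp g1
              obtain ⟨g5, g6⟩ := hix1 v g4
              refine mem_coe.mpr (mem_filter.mpr ⟨?_, g2⟩)
              rw [hS]
              exact mem_filter.mpr ⟨mem_range.mpr g5, by rw [g6]; exact g3⟩
            · intro v hv v' hv' he
              obtain ⟨g1, _⟩ := mem_filter.mp (mem_coe.mp hv)
              obtain ⟨g1', _⟩ := mem_filter.mp (mem_coe.mp hv')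
              rw [hD'] at g1 g1'
              rw [← (hix1 v (mem_inter.mp g1).2).2, ← (hix1 v' (mem_inter.mp g1').2).2, he])
          have h3 := Finset.card_filter_add_card_filter_not (s := E)
            (p := fun e => cell (ix e.1) = cell (ix e.2))
          have h4 : #{e ∈ E | ¬ cell (ix e.1) = cell (ix e.2)} =
              #{e ∈ E | cell (ix e.1) ≠ cell (ix e.2)} := rfl
          omega
        · have h2 : ({e ∈ E | cell (ix e.1) ≠ cell (ix e.2)} : Finset _) ⊆
              ({e ∈ F.edges | (e.2.1 ∈ S ∧ e.2.2 ∈ S) ∧ cell e.2.1 ≠ cell e.2.2} :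
                Finset _).image (fun f => (pt f.2.1, pt f.2.2)) := by
            intro e he
            obtain ⟨g1, g2⟩ := mem_filter.mp he
            obtain ⟨c, a, b, g3, g4, g5⟩ := hE e (hEI e g1)
            have g6 := (F.mem_edges.mp g3).1
            have g7 := hED e g1
            rw [hD'] at g7
            refine mem_image.mpr ⟨(c, a, b), mem_filter.mpr ⟨g3, ⟨?_, ?_⟩, ?_⟩, ?_⟩
            · rw [hS]
              exact mem_filter.mpr ⟨mem_range.mpr g6.1, by
                rw [g4]; exact (mem_inter.mp g7.1).1⟩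
            · rw [hS]
              exact mem_filter.mpr ⟨mem_range.mpr g6.2, by
                rw [g5]; exact (mem_inter.mp g7.2).1⟩
            · rw [← g4, ← g5, hix2 _ g6.1, hix2 _ g6.2] at g2
              exact g2
            · simp only [g4, g5]
          have h3 := (card_le_card h2).trans card_image_le
          have h4 : H * (H * (#S / N0)) ≤ H * (H * (#D' / N0)) :=
            Nat.mul_le_mul_left _ (Nat.mul_le_mul_left _ (Nat.div_le_div_right hSD))
          have h5 : 100 * (#(Tch P k P Set.univ) + #(EdBd P k P Set.univ)) ^ 2 ≤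
              100 * #P ^ 2 := by
            rw [hbd, Nat.add_zero]
            exact Nat.mul_le_mul_left _ (Nat.pow_le_pow_left hTP 2)
          calc H * #{e ∈ E | cell (ix e.1) ≠ cell (ix e.2)} ≤ _ := Nat.mul_le_mul_left H h3
            _ ≤ _ := hc2
            _ ≤ 100 * #P ^ 2 + H * (H * (#D' / N0)) :=
              Nat.add_le_add (hX.trans h5) h4)
      refine h1.trans ?_
      apply mul_le_mul_of_nonneg_left _ (by norm_num)
      apply Real.rpow_le_rpow (by positivity) _ (by norm_num)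
      apply mul_le_mul_of_nonneg_right _ (Nat.cast_nonneg _)
      exact_mod_cast hD'D
  rw [hEd] at hmain
  convert hmain using 4

end Vale.Agent.P065.R2.H671
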