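import Vale.Agent.P065.UB.Piece

/-! P065: the number of chains, and chains against caps (helper671) -/

set_option autoImplicit false

namespace Vale.Agent.P065.R2.H671

open Finset Vale.Agent.P065.UB

variable {P : Finset Pt} {k : ℕ}

/-- any three points of `X` are in cup position -/
def Cup (X : Finset Pt) : Prop :=
  ∀ u ∈ X, ∀ v ∈ X, ∀ w ∈ X, u.1 < v.1 → v.1 < w.1 → sl u v < sl v w

/-- any three points of `X` are in cap position -/
def Cap (X : Finset Pt) : Prop :=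
  ∀ u ∈ X, ∀ v ∈ X, ∀ w ∈ X, u.1 < v.1 → v.1 < w.1 → sl v w < sl u v

theorem mem_EdIn_univ {e : Eg} : e ∈ EdIn P k P Set.univ ↔ e ∈ Ed P k := by
  rw [mem_EdIn]
  constructor
  · exact fun h => h.1
  · intro h
    obtain ⟨h1, h2, _, _⟩ := mem_Ed.mp h
    exact ⟨h, h1, h2, Set.mem_univ _⟩

theorem exists_nx (hP : Good P) {e : Eg} (he : e ∈ Ed P k) {w : Pt} (hw : (w, e.1) ∈ Ed P k)
    (hs : sl w e.1 < slE e) : ∃ f ∈ Ed P k, Nx P k f e := by
  classical
  have hne : ({f ∈ Ed P k | f.2 = e.1 ∧ slE f < slE e} : Finset Eg).Nonempty :=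
    ⟨(w, e.1), mem_filter.mpr ⟨hw, rfl, hs⟩⟩
  obtain ⟨f, hf, hmax⟩ := exists_max_image _ slE hne
  obtain ⟨hf1, hf2, hf3⟩ := mem_filter.mp hf
  refine ⟨f, hf1, hf2, hf3, ?_⟩
  rintro u hu ⟨h1, h2⟩
  rw [hf2] at hu h1 h2
  have h3 : slE (e.1, u) < slE e := h2
  obtain ⟨z, hz, hz1, hz2⟩ := out_out' hP hu he rfl h3
  have h4 := hmax (z, e.1) (mem_filter.mpr ⟨hz, rfl, hz2⟩)
  have h5 : slE (z, e.1) = sl z e.1 := rfl
  have h6 : slE (e.1, u) = sl e.1 u := rfl
  rw [h5] at h4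
  rw [h6] at hz1
  have h7 : sl e.1 u < sl z e.1 := hz1
  linarith

theorem no_in_of_root (hP : Good P) {a : Eg} (ha : a ∈ Pcs P k P Set.univ) {w : Pt}
    (hw : (w, a.1) ∈ Ed P k) : ¬ sl w a.1 < slE a := by
  intro hs
  obtain ⟨h1, h2⟩ := mem_Pcs.mp ha
  obtain ⟨f, hf, hn⟩ := exists_nx hP (mem_EdIn_univ.mp h1) hw hs
  have h3 : NxE P k P Set.univ f a := ⟨mem_EdIn_univ.mpr hf, h1, hn⟩
  have h4 := prv_eq hP h3
  rw [h2] at h4
  have h5 := hn.2.1
  rw [← h4] at h5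
  exact lt_irrefl _ h5

theorem left_rank (hP : Good P) {a : Eg} (ha : a ∈ Pcs P k P Set.univ) :
    #{u ∈ P | u.1 < a.1.1} ≤ k := by
  classical
  by_contra hcon
  push Not at hcon
  obtain ⟨h1, h2⟩ := mem_Pcs.mp ha
  have hE := mem_EdIn_univ.mp h1
  have hv := (mem_Ed.mp hE).1
  obtain ⟨m0, hm0⟩ := (insert (slE a) (P.image (fun u => sl a.1 u))).bddBelow
  have hlow : ∀ u ∈ P, m0 - 1 < sl a.1 u := by
    intro u hu
    have h3 : m0 ≤ sl a.1 u := hm0 (mem_coe.mpr (mem_insert_of_mem (mem_image_of_mem _ hu)))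
    linarith
  have hlow' : m0 - 1 < slE a := by
    have h3 : m0 ≤ slE a := hm0 (mem_coe.mpr (mem_insert_self _ _))
    linarith
  have h3 : k + 1 ≤ gp P (m0 - 1) a.1 := by
    refine le_trans hcon ?_
    unfold gp
    apply card_le_card
    intro u hu
    obtain ⟨hu1, hu2⟩ := mem_filter.mp hu
    exact mem_filter.mpr ⟨hu1, Or.inr ⟨hu2, hlow u hu1⟩⟩
  have h4 : gm P (slE a) a.1 ≤ k := le_of_eq (edge_left hP hE).1
  obtain ⟨w, hw, _, hw2⟩ := enter_edge hP hv _ _ _ rfl hlow' h3 h4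
  exact no_in_of_root hP ha hw hw2

theorem root_inj (hP : Good P) {a b : Eg} (ha : a ∈ Pcs P k P Set.univ)
    (hb : b ∈ Pcs P k P Set.univ) (h : a.1 = b.1) : a = b := by
  have ha' := mem_EdIn_univ.mp (mem_Pcs.mp ha).1
  have hb' := mem_EdIn_univ.mp (mem_Pcs.mp hb).1
  rcases lt_trichotomy (slE a) (slE b) with h1 | h1 | h1
  · obtain ⟨w, hw, _, hw2⟩ := out_out' hP ha' hb' h h1
    rw [h] at hw hw2
    exact absurd hw2 (no_in_of_root hP hb hw)
  · exact slE_inj hP ha' hb' h1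
  · obtain ⟨w, hw, _, hw2⟩ := out_out' hP hb' ha' h.symm h1
    rw [← h] at hw hw2
    exact absurd hw2 (no_in_of_root hP ha hw)

/-- **at most `k + 1` chains** -/
theorem card_Pcs_le (hP : Good P) : #(Pcs P k P Set.univ) ≤ k + 1 := by
  classical
  have key : ∀ v ∈ P, ∀ w ∈ P, v.1 < w.1 → #{u ∈ P | u.1 < v.1} < #{u ∈ P | u.1 < w.1} := by
    intro v hv w _ hvw
    apply card_lt_card
    rw [ssubset_iff_of_subset]
    · exact ⟨v, mem_filter.mpr ⟨hv, hvw⟩, fun h => lt_irrefl _ (mem_filter.mp h).2⟩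
    · intro u hu
      obtain ⟨h1, h2⟩ := mem_filter.mp hu
      exact mem_filter.mpr ⟨h1, lt_trans h2 hvw⟩
  have h1 : ∀ a ∈ Pcs P k P Set.univ, a.1 ∈ P := fun a ha =>
    (mem_Ed.mp (mem_EdIn_univ.mp (mem_Pcs.mp ha).1)).1
  calc #(Pcs P k P Set.univ) ≤ #(range (k + 1)) := by
        apply card_le_card_of_injOn (fun a => #{u ∈ P | u.1 < a.1.1})
        · intro a ha
          rw [mem_coe, mem_range]
          exact Nat.lt_succ_of_le (left_rank hP (mem_coe.mp ha))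
        · intro a ha b hb hab
          have hab' : #{u ∈ P | u.1 < a.1.1} = #{u ∈ P | u.1 < b.1.1} := hab
          apply root_inj hP (mem_coe.mp ha) (mem_coe.mp hb)
          have ha1 := h1 a (mem_coe.mp ha)
          have hb1 := h1 b (mem_coe.mp hb)
          rcases lt_trichotomy a.1.1 b.1.1 with h | h | h
          · have := key _ ha1 _ hb1 h
            omega
          · exact hP.xinj _ ha1 _ hb1 h
          · have := key _ hb1 _ ha1 h
            omega
    _ = k + 1 := card_range _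

open Classical in
/-- the vertices of the chain with root `a` -/
noncomputable def Vx (P : Finset Pt) (k : ℕ) (a : Eg) : Finset Pt :=
  {v ∈ P | ∃ e ∈ Ed P k, root P k P Set.univ e = a ∧ (e.1 = v ∨ e.2 = v)}

theorem mem_Vx {a : Eg} {v : Pt} : v ∈ Vx P k a ↔
    v ∈ P ∧ ∃ e ∈ Ed P k, root P k P Set.univ e = a ∧ (e.1 = v ∨ e.2 = v) := by
  classical
  unfold Vx
  rw [mem_filter]

theorem Ln_vertex {e : Eg} (he : e ∈ Ed P k) {v : Pt} (hv : e.1 = v ∨ e.2 = v) :
    Ln e v.1 = v.2 := by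
  rcases hv with rfl | rfl
  · exact Ln_fst e
  · exact Ln_snd e (mem_Ed.mp he).2.2.1

theorem above (hP : Good P) {a e : Eg} {v : Pt} (hr : root P k P Set.univ e = a)
    (hv : v ∈ Vx P k a) : Ln e v.1 ≤ v.2 := by
  obtain ⟨_, f, hf, hrf, hfv⟩ := mem_Vx.mp hv
  have h1 := Ln_vertex hf hfv
  have h0 := (mem_Ed.mp hf).2.2.1
  have h2 : f.1.1 ≤ v.1 ∧ v.1 ≤ f.2.1 := by
    rcases hfv with rfl | rfl
    · exact ⟨le_refl _, h0.le⟩
    · exact ⟨h0.le, le_refl _⟩
  rcases compar (P := P) (k := k) (Q := P) (I := Set.univ) hP (hr.trans hrf.symm) with h | h | h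
  · rw [h, h1]
  · rw [← h1]
    exact h.right v.1 h2.1
  · rw [← h1]
    exact h.left v.1 h2.2

theorem cup_Vx (hP : Good P) (a : Eg) : Cup (Vx P k a) := by
  intro u hu v hv w hw huv hvw
  obtain ⟨hvP, e, he, hr, hev⟩ := mem_Vx.mp hv
  have huP := (mem_Vx.mp hu).1
  have hwP := (mem_Vx.mp hw).1
  have hLv := Ln_vertex he hev
  have h1 := above hP hr hu
  have h2 := above hP hr hw
  have e1 := Ln_sub e v.1 u.1
  have e2 := Ln_sub e w.1 v.1
  have h3 : sl u v ≤ slE e := by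
    unfold sl
    rw [div_le_iff₀ (by linarith)]
    linarith
  have h4 : slE e ≤ sl v w := by
    unfold sl
    rw [le_div_iff₀ (by linarith)]
    linarith
  refine lt_of_le_of_ne (h3.trans h4) ?_
  intro h5
  rw [sl_comm u v] at h5
  have h6 := uniq hP hvP huP hwP (ne_of_lt huv) (ne_of_gt hvw) h5
  rw [h6] at huv
  linarith

theorem fst_inj (hP : Good P) {e f : Eg} (he : e ∈ Ed P k) (hf : f ∈ Ed P k)
    (hr : root P k P Set.univ e = root P k P Set.univ f) (h : e.1 = f.1) : e = f := by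
  rcases compar (P := P) (k := k) (Q := P) (I := Set.univ) hP hr with h1 | h1 | h1
  · exact h1
  · have h2 := h1.range
    have h3 := (mem_Ed.mp he).2.2.1
    rw [← h] at h2
    linarith
  · have h2 := h1.range
    have h3 := (mem_Ed.mp hf).2.2.1
    rw [h] at h2
    linarith

/-- no cup in `A` has more than `c` points -/
def NoCup (A : Finset Pt) (c : ℕ) : Prop := ∀ X, X ⊆ A → Cup X → #X ≤ c

/-- no cap in `A` has more than `c` points -/
def NoCap (A : Finset Pt) (c : ℕ) : Prop := ∀ X, X ⊆ A → Cap X → #X ≤ c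

theorem Cup.mono {X Y : Finset Pt} (h : Cup Y) (hXY : X ⊆ Y) : Cup X :=
  fun u hu v hv w hw => h u (hXY hu) v (hXY hv) w (hXY hw)

theorem Cap.mono {X Y : Finset Pt} (h : Cap Y) (hXY : X ⊆ Y) : Cap X :=
  fun u hu v hv w hw => h u (hXY hu) v (hXY hv) w (hXY hw)

/-- **edges whose left end is in `A`** -/
theorem card_fst (hP : Good P) {A : Finset Pt} {c : ℕ} (hA : NoCup A c) [DecidableEq Pt] :
    #{e ∈ Ed P k | e.1 ∈ A} ≤ c * (k + 1) := by
  classical
  have h1 : ∀ e ∈ ({e ∈ Ed P k | e.1 ∈ A} : Finset Eg),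
      root P k P Set.univ e ∈ Pcs P k P Set.univ := fun e he =>
    root_mem_Pcs (mem_EdIn_univ.mpr (mem_filter.mp he).1)
  rw [card_eq_sum_card_fiberwise h1]
  calc ∑ a ∈ Pcs P k P Set.univ,
        #{e ∈ ({e ∈ Ed P k | e.1 ∈ A} : Finset Eg) | root P k P Set.univ e = a}
      ≤ ∑ a ∈ Pcs P k P Set.univ, c := by
        apply sum_le_sum
        intro a _
        refine le_trans ?_ (hA ({v ∈ Vx P k a | v ∈ A}) (fun v hv => (mem_filter.mp hv).2)
          ((cup_Vx hP a).mono (filter_subset _ _)))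
        apply card_le_card_of_injOn (fun e => e.1)
        · intro e he
          obtain ⟨h2, h3⟩ := mem_filter.mp (mem_coe.mp he)
          obtain ⟨h4, h5⟩ := mem_filter.mp h2
          exact mem_coe.mpr (mem_filter.mpr ⟨mem_Vx.mpr ⟨(mem_Ed.mp h4).1, e, h4, h3,
            Or.inl rfl⟩, h5⟩)
        · intro e he f hf hef
          obtain ⟨h2, h3⟩ := mem_filter.mp (mem_coe.mp he)
          obtain ⟨h4, h5⟩ := mem_filter.mp (mem_coe.mp hf)
          exact fst_inj hP (mem_filter.mp h2).1 (mem_filter.mp h4).1 (h3.trans h5.symm) hef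
    _ = #(Pcs P k P Set.univ) * c := by rw [sum_const, smul_eq_mul]
    _ ≤ (k + 1) * c := Nat.mul_le_mul_right _ (card_Pcs_le hP)
    _ = c * (k + 1) := Nat.mul_comm _ _

end Vale.Agent.P065.R2.H671
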