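import Mathlib
import Vale.Agent.P065.KSetDefs

/-! P065: sets in convex position, cups (helper671) -/

set_option autoImplicit false

namespace Vale.Agent.P065.R2.H671

/-- `C` is in convex position (convexly independent): no point of `C` lies in the convex hull of
the other points of `C`. -/
def InConvexPosition (C : Finset (ℝ × ℝ)) : Prop :=
  ∀ x ∈ C, x ∉ convexHull ℝ {y : ℝ × ℝ | y ∈ C ∧ y ≠ x}

/-- `C` is a cup in the direction `u` (`u` pointing upwards): no point `x` of `C` lies on or above
the convex hull of the other points of `C`, that is, `x - t u` is outside this hull for all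
`t ≥ 0`. -/
def IsCup (u : ℝ × ℝ) (C : Finset (ℝ × ℝ)) : Prop :=
  ∀ x ∈ C, ∀ t : ℝ, 0 ≤ t → x - t • u ∉ convexHull ℝ {y : ℝ × ℝ | y ∈ C ∧ y ≠ x}

end Vale.Agent.P065.R2.H671
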