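import Vale.Agent.P065.R2.H671.Lin

/-! P065: halving lines and `k`-sets against cups in one direction (helper671) -/

set_option autoImplicit false

namespace Vale.Agent.P065.R2.H671

open Finset Vale.Agent.P065 Vale.Agent.P065.UB Vale.Agent.P065.U.H792.Trans

/-- no two points of `P` lie on a line parallel to `u` -/
def Trv (u : Pt) (P : Finset Pt) : Prop := ∀ p ∈ P, ∀ q ∈ P, ∀ t : ℝ, p = q + t • u → p = q

theorem Trv.neg {u : Pt} {P : Finset Pt} (h : Trv u P) : Trv (-u) P := by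
  intro p hp q hq t ht
  apply h p hp q hq (-t)
  rw [ht, smul_neg, neg_smul]

/-- a linear map of determinant one that makes `u` vertical -/
theorem exists_lm {u : Pt} (hu : u ≠ 0) {P : Finset Pt} (hP : Trv u P) :
    ∃ α β γ δ : ℝ, α * δ - β * γ = 1 ∧ lm α β γ δ u = (0, 1) ∧
      ∀ p ∈ P, ∀ q ∈ P, (lm α β γ δ p).1 = (lm α β γ δ q).1 → p = q := by
  have hN : 0 < u.1 ^ 2 + u.2 ^ 2 := by
    by_contra hcon
    apply hu
    have h1 : u.1 ^ 2 = 0 := by nlinarith [sq_nonneg u.1, sq_nonneg u.2]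
    have h2 : u.2 ^ 2 = 0 := by nlinarith [sq_nonneg u.1, sq_nonneg u.2]
    exact Prod.ext (pow_eq_zero_iff (two_ne_zero) |>.mp h1) (pow_eq_zero_iff (two_ne_zero) |>.mp h2)
  have hN' := hN.ne'
  refine ⟨u.2, -u.1, u.1 / (u.1 ^ 2 + u.2 ^ 2), u.2 / (u.1 ^ 2 + u.2 ^ 2), ?_, ?_, ?_⟩
  · field_simp
    ring
  · unfold lm
    apply Prod.ext
    · simp only
      ring
    · simp only
      field_simp
  · intro p hp q hq h
    unfold lm at h
    simp only at h
    apply hP p hp q hq ((u.1 * (p.1 - q.1) + u.2 * (p.2 - q.2)) / (u.1 ^ 2 + u.2 ^ 2))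
    apply Prod.ext
    · simp only [Prod.fst_add, Prod.smul_fst, smul_eq_mul]
      have : (u.1 * (p.1 - q.1) + u.2 * (p.2 - q.2)) / (u.1 ^ 2 + u.2 ^ 2) * u.1 = p.1 - q.1 := by
        rw [div_mul_eq_mul_div, div_eq_iff hN']
        linear_combination (-u.2) * h
      linarith
    · simp only [Prod.snd_add, Prod.smul_snd, smul_eq_mul]
      have : (u.1 * (p.1 - q.1) + u.2 * (p.2 - q.2)) / (u.1 ^ 2 + u.2 ^ 2) * u.2 = p.2 - q.2 := by
        rw [div_mul_eq_mul_div, div_eq_iff hN']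
        linear_combination (u.1) * h
      linarith

/-- the two dimensional data in vertical position -/
theorem dir_data {P : Finset Pt} (hg : GenPos P) {u : Pt} (hu : u ≠ 0) (hP : Trv u P)
    (A B : Finset Pt) (a b : ℕ) (hA : ∀ X, X ⊆ A → IsCup u X → #X ≤ a)
    (hB : ∀ X, X ⊆ B → IsCup (-u) X → #X ≤ b) (hc : ∀ p ∈ P, p ∈ A ∨ p ∈ B) :
    ∃ α β γ δ : ℝ, α * δ - β * γ = 1 ∧ Good (P.image (lm α β γ δ)) ∧
      ∀ k, k + 2 ≤ #P → #(Ed (P.image (lm α β γ δ)) k) ≤ a * (k + 1) + b * (#P - k - 1) := by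
  classical
  obtain ⟨α, β, γ, δ, hdet, huv, hx⟩ := exists_lm hu hP
  have hG := good_lm hdet hg hx
  refine ⟨α, β, γ, δ, hdet, hG, ?_⟩
  intro k hk
  have hcard : #(P.image (lm α β γ δ)) = #P := card_image_of_injective _ (lm_inj hdet)
  -- subsets of an image are images
  have hpull : ∀ (S X : Finset Pt), X ⊆ (S ∩ P).image (lm α β γ δ) →
      ∃ Y, Y ⊆ S ∧ X = Y.image (lm α β γ δ) ∧ #X = #Y ∧
        ∀ p ∈ X, ∀ q ∈ X, p.1 = q.1 → p = q := by
    intro S X hX
    obtain ⟨Y, hY, rfl⟩ := Finset.subset_image_iff.mp hX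
    refine ⟨Y, hY.trans inter_subset_left, rfl, card_image_of_injective _ (lm_inj hdet), ?_⟩
    intro p hp q hq h
    have hs : Y.image (lm α β γ δ) ⊆ P.image (lm α β γ δ) :=
      image_subset_image (hY.trans inter_subset_right)
    exact hG.xinj p (hs hp) q (hs hq) h
  have h1 := card_Ed_le (k := k) hG (by rw [hcard]; exact hk)
    (A := (A ∩ P).image (lm α β γ δ)) (B := (B ∩ P).image (lm α β γ δ)) (a := a) (b := b)
    (by
      intro X hX hcup
      obtain ⟨Y, hY, e, hXY, hxx⟩ := hpull A X hX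
      have h2 := isCup_of_cup hxx hcup
      rw [e, ← huv] at h2
      rw [hXY]
      exact hA Y hY (h2.pull hdet))
    (by
      intro X hX hcap
      obtain ⟨Y, hY, e, hXY, hxx⟩ := hpull B X hX
      have h2 := isCup_of_cap hxx hcap
      have e2 : ((0, -1) : Pt) = lm α β γ δ (-u) := by
        have e3 : lm α β γ δ (-u) = - lm α β γ δ u := isLinearMap_lm.map_neg u
        rw [e3, huv]
        simp
      rw [e, e2] at h2
      rw [hXY]
      exact hB Y hY (h2.pull hdet))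
    (by
      intro p hp
      obtain ⟨p0, hp0, rfl⟩ := mem_image.mp hp
      rcases hc p0 hp0 with h | h
      · exact Or.inl (mem_image_of_mem _ (mem_inter.mpr ⟨h, hp0⟩))
      · exact Or.inr (mem_image_of_mem _ (mem_inter.mpr ⟨h, hp0⟩)))
  rw [hcard] at h1
  exact h1

/-- **halving lines** -/
theorem halving_dir {P : Finset Pt} (hg : GenPos P) {u : Pt} (hu : u ≠ 0) (hP : Trv u P)
    (A B : Finset Pt) (a b : ℕ) (hA : ∀ X, X ⊆ A → IsCup u X → #X ≤ a)
    (hB : ∀ X, X ⊆ B → IsCup (-u) X → #X ≤ b) (hc : ∀ p ∈ P, p ∈ A ∨ p ∈ B) :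
    2 * halvingNumber P ≤ (a + b) * #P := by
  classical
  by_cases hz : halvingNumber P = 0
  · rw [hz]
    omega
  have hev : ∃ r, #P = 2 * r + 2 := by
    unfold halvingNumber at hz
    obtain ⟨e, he⟩ := card_pos.mp (Nat.pos_of_ne_zero hz)
    obtain ⟨_, x, y, _, hxy⟩ := mem_filter.mp he
    exact ⟨_, hxy.2.1.symm⟩
  obtain ⟨r, hr⟩ := hev
  obtain ⟨α, β, γ, δ, hdet, hG, hE⟩ := dir_data hg hu hP A B a b hA hB hc
  have h1 := halvingNumber_lm hdet P
  have h2 := halvingNumber_le hG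
  have hcard : #(P.image (lm α β γ δ)) = #P := card_image_of_injective _ (lm_inj hdet)
  rw [hcard] at h2
  have h3 : (#P - 2) / 2 = r := by omega
  rw [h3] at h2
  have h4 := hE r (by omega)
  have h5 : #P - r - 1 = r + 1 := by omega
  rw [h5] at h4
  have h6 : halvingNumber P ≤ a * (r + 1) + b * (r + 1) := h1.trans (h2.trans h4)
  calc 2 * halvingNumber P ≤ 2 * (a * (r + 1) + b * (r + 1)) := Nat.mul_le_mul_left _ h6
    _ = (a + b) * #P := by
        rw [hr]
        ring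

/-- **`k`-sets** -/
theorem kset_dir {P : Finset Pt} (hg : GenPos P) {u : Pt} (hu : u ≠ 0) (hP : Trv u P)
    (A B : Finset Pt) (a b : ℕ) (hA : ∀ X, X ⊆ A → IsCup u X → #X ≤ a)
    (hB : ∀ X, X ⊆ B → IsCup (-u) X → #X ≤ b) (hc : ∀ p ∈ P, p ∈ A ∨ p ∈ B)
    {k : ℕ} (hk1 : 1 ≤ k) (hk2 : k + 1 ≤ #P) :
    kSetNumber P k ≤ (a + b) * #P + 2 := by
  classical
  obtain ⟨j, rfl⟩ : ∃ j, k = j + 1 := ⟨k - 1, by omega⟩
  obtain ⟨α, β, γ, δ, hdet, hG, hE⟩ := dir_data hg hu hP A B a b hA hB hc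
  have hcard : #(P.image (lm α β γ δ)) = #P := card_image_of_injective _ (lm_inj hdet)
  have h1 := kSetNumber_lm hdet P (j + 1)
  have h2 := kSetNumber_le hG (k := j) (by rw [hcard]; omega)
  rw [hcard] at h2
  have h3 := hE j (by omega)
  have h4 := hE (#P - j - 2) (by omega)
  obtain ⟨i, hi⟩ : ∃ i, #P = j + 1 + (i + 1) := ⟨#P - j - 2, by omega⟩
  have e1 : #P - j - 1 = i + 1 := by omega
  have e2 : #P - j - 2 + 1 = i + 1 := by omega
  have e3 : #P - (#P - j - 2) - 1 = j + 1 := by omega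
  rw [e1] at h3
  rw [e2, e3] at h4
  have h7 : kSetNumber P (j + 1) ≤ (a * (j + 1) + b * (i + 1)) + (a * (i + 1) + b * (j + 1)) + 2 := by
    refine h1.trans (h2.trans ?_)
    omega
  refine h7.trans (le_of_eq ?_)
  rw [hi]
  ring

/-- a cup which is a cap has at most two points -/
theorem card_cup_cap {P : Finset Pt} {u : Pt} (hu : u ≠ 0) (hP : Trv u P) {X : Finset Pt}
    (hX : X ⊆ P) (h1 : IsCup u X) (h2 : IsCup (-u) X) : #X ≤ 2 := by
  classical
  obtain ⟨α, β, γ, δ, hdet, huv, hx⟩ := exists_lm hu hP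
  have h3 := h1.push hdet
  have h4 := h2.push hdet
  have e2 : lm α β γ δ (-u) = ((0, -1) : Pt) := by
    have e3 : lm α β γ δ (-u) = - lm α β γ δ u := isLinearMap_lm.map_neg u
    rw [e3, huv]
    simp
  rw [huv] at h3
  rw [e2] at h4
  have h5 := cup_of_isCup h3
  have h6 := cap_of_isCup h4
  rw [← card_image_of_injective X (lm_inj hdet)]
  apply card_le_two
  · intro p hp q hq h
    obtain ⟨p0, hp0, rfl⟩ := mem_image.mp hp
    obtain ⟨q0, hq0, rfl⟩ := mem_image.mp hq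
    rw [hx p0 (hX hp0) q0 (hX hq0) h]
  · intro p hp q hq r hr hpq hqr
    have h7 := h5 p hp q hq r hr hpq hqr
    have h8 := h6 p hp q hq r hr hpq hqr
    linarith

end Vale.Agent.P065.R2.H671
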