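import Vale.Agent.P065.R2.H671.Pos
import Vale.Agent.P065.U.H792.Trans

/-! P065: halving lines and `k`-sets of sets covered by few sets in convex position (helper671) -/

set_option autoImplicit false

namespace Vale.Agent.P065.R2.H671

open Finset Vale.Agent.P065 Vale.Agent.P065.UB Vale.Agent.P065.U.H792.Trans

theorem sh_sh (ε : ℝ) (z : Pt) : sh (-ε) (sh ε z) = z := by
  unfold sh
  apply Prod.ext
  · simp only
    ring
  · rfl

/-- the sheared data -/
theorem shear_data [DecidableEq Pt] {P : Finset Pt} (hg : GenPos P) (A : Finset Pt)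
    (F : Finset (Finset Pt)) (c : ℕ)
    (hA : ∀ X, X ⊆ A → InConvexPosition X → #X ≤ c) (hF : ∀ C ∈ F, InConvexPosition C)
    (hc : ∀ p ∈ P, p ∈ A ∨ ∃ C ∈ F, p ∈ C) :
    ∃ ε : ℝ, Good (P.image (sh ε)) ∧ ∀ k, k + 2 ≤ #P →
      #(Ed (P.image (sh ε)) k) ≤ c * min (k + 1) (#P - k - 1) + 2 * #F * #P := by
  classical
  obtain ⟨ε, hε⟩ := exists_shear P
  have hP : Good (P.image (sh ε)) := by
    have h := good_shear hg hε
    rw [show (fun a b => instDecidableEqProd a b) = (‹DecidableEq Pt›) from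
      Subsingleton.elim _ _] at h
    exact h
  refine ⟨ε, hP, ?_⟩
  intro k hk
  have hcard : #(P.image (sh ε)) = #P := card_image_of_injective _ (sh_inj ε)
  have h1 := card_Ed_pos (k := k) hP (by rw [hcard]; exact hk) (A.image (sh ε))
    (F.image (fun C => C.image (sh ε))) c
    (by
      intro X hX hpos
      have h2 := hA (X.image (sh (-ε))) (by
        intro z hz
        obtain ⟨x, hx, rfl⟩ := mem_image.mp hz
        obtain ⟨y, hy, rfl⟩ := mem_image.mp (hX hx)
        rw [sh_sh]
        exact hy) (pos_shear (-ε) hpos)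
      rw [card_image_of_injective _ (sh_inj (-ε))] at h2
      exact h2)
    (by
      intro C hC
      obtain ⟨D, hD, rfl⟩ := mem_image.mp hC
      exact pos_shear ε (hF D hD))
    (by
      intro p hp
      obtain ⟨y, hy, rfl⟩ := mem_image.mp hp
      rcases hc y hy with h | ⟨C, hC, h⟩
      · exact Or.inl (mem_image_of_mem _ h)
      · exact Or.inr ⟨C.image (sh ε), mem_image_of_mem (fun C => C.image (sh ε)) hC,
          mem_image_of_mem _ h⟩)
  rw [hcard] at h1
  refine h1.trans (Nat.add_le_add_left (Nat.mul_le_mul_right _ ?_) _)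
  have : #(F.image (fun C => C.image (sh ε))) ≤ #F := card_image_le
  omega

/-- **halving lines** -/
theorem halving_le {P : Finset Pt} (hg : GenPos P) (A : Finset Pt)
    (F : Finset (Finset Pt)) (c : ℕ)
    (hA : ∀ X, X ⊆ A → InConvexPosition X → #X ≤ c) (hF : ∀ C ∈ F, InConvexPosition C)
    (hc : ∀ p ∈ P, p ∈ A ∨ ∃ C ∈ F, p ∈ C) :
    2 * halvingNumber P ≤ (4 * #F + c) * #P := by
  classical
  by_cases hz : halvingNumber P = 0
  · rw [hz]
    omega
  -- the number of points is even and at least two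
  have hev : ∃ r, #P = 2 * r + 2 := by
    unfold halvingNumber at hz
    obtain ⟨e, he⟩ := card_pos.mp (Nat.pos_of_ne_zero hz)
    obtain ⟨_, a, b, _, hab⟩ := mem_filter.mp he
    exact ⟨_, hab.2.1.symm⟩
  obtain ⟨r, hr⟩ := hev
  obtain ⟨ε, hP, hE⟩ := shear_data hg A F c hA hF hc
  have h1 := halvingNumber_shear (P := P) ε
  have h2 := halvingNumber_le hP
  have hcard : #(P.image (sh ε)) = #P := card_image_of_injective _ (sh_inj ε)
  rw [hcard] at h2
  have h3 : (#P - 2) / 2 = r := by omega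
  rw [h3] at h2
  have h4 := hE r (by omega)
  have h5 : min (r + 1) (#P - r - 1) = r + 1 := by omega
  rw [h5] at h4
  have h6 : halvingNumber P ≤ c * (r + 1) + 2 * #F * #P := by
    refine h1.trans (h2.trans ?_)
    exact h4
  calc 2 * halvingNumber P ≤ 2 * (c * (r + 1) + 2 * #F * #P) := Nat.mul_le_mul_left _ h6
    _ = (4 * #F + c) * #P := by
        rw [hr]
        ring

/-- **`k`-sets** -/
theorem kset_le {P : Finset Pt} (hg : GenPos P) (A : Finset Pt)
    (F : Finset (Finset Pt)) (c : ℕ)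
    (hA : ∀ X, X ⊆ A → InConvexPosition X → #X ≤ c) (hF : ∀ C ∈ F, InConvexPosition C)
    (hc : ∀ p ∈ P, p ∈ A ∨ ∃ C ∈ F, p ∈ C) {k : ℕ} (hk1 : 1 ≤ k) (hk2 : k + 1 ≤ #P) :
    kSetNumber P k ≤ 4 * #F * #P + 2 * c * min k (#P - k) + 2 := by
  classical
  obtain ⟨j, rfl⟩ : ∃ j, k = j + 1 := ⟨k - 1, by omega⟩
  obtain ⟨ε, hP, hE⟩ := shear_data hg A F c hA hF hc
  have hcard : #(P.image (sh ε)) = #P := card_image_of_injective _ (sh_inj ε)
  have h1 := kSetNumber_shear (P := P) ε (j + 1)
  have h2 := kSetNumber_le hP (k := j) (by rw [hcard]; omega)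
  rw [hcard] at h2
  have h3 := hE j (by omega)
  have h4 := hE (#P - j - 2) (by omega)
  have h5 : min (#P - j - 2 + 1) (#P - (#P - j - 2) - 1) = min (j + 1) (#P - (j + 1)) := by omega
  have h6 : min (j + 1) (#P - j - 1) = min (j + 1) (#P - (j + 1)) := by omega
  rw [h5] at h4
  rw [h6] at h3
  have h7 : kSetNumber P (j + 1) ≤ (c * min (j + 1) (#P - (j + 1)) + 2 * #F * #P) +
      (c * min (j + 1) (#P - (j + 1)) + 2 * #F * #P) + 2 := by
    refine h1.trans (h2.trans ?_)
    omega
  refine h7.trans (le_of_eq ?_)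
  ring

/-- one more set in convex position -/
theorem exists_pos {P : Finset Pt} (hg : GenPos P) (F : Finset (Finset Pt))
    (hF : ∀ C ∈ F, InConvexPosition C) (h : 4 * (#F + 1) * #P ≤ halvingNumber P)
    (hn : 0 < #P) :
    ∃ X : Finset Pt, X ⊆ P ∧ InConvexPosition X ∧ (∀ C ∈ F, Disjoint X C) ∧
      halvingNumber P ≤ #P * #X := by
  classical
  by_contra hcon
  push Not at hcon
  -- the largest `c` with `c n < h`
  obtain ⟨c, hc1, hc2⟩ : ∃ c, c * #P < halvingNumber P ∧ halvingNumber P ≤ (c + 1) * #P := by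
    refine ⟨(halvingNumber P - 1) / #P, ?_, ?_⟩
    · have h1 := Nat.div_mul_le_self (halvingNumber P - 1) #P
      have h2 : 1 ≤ halvingNumber P := by
        have : 1 ≤ 4 * (#F + 1) * #P := Nat.mul_pos (by omega) hn
        omega
      omega
    · have h1 := Nat.lt_div_mul_add (a := halvingNumber P - 1) hn
      rw [Nat.add_mul]
      omega
  have h3 := halving_le hg (P.filter (fun p => ∀ C ∈ F, p ∉ C)) F c (by
    intro X hX hpos
    by_contra hlt
    push Not at hlt
    have h4 := hcon X (hX.trans (filter_subset _ _)) hpos (by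
      intro C hC
      rw [Finset.disjoint_left]
      intro x hx
      exact (mem_filter.mp (hX hx)).2 C hC)
    have h5 : (c + 1) * #P ≤ #P * #X := by
      rw [Nat.mul_comm]
      exact Nat.mul_le_mul_left _ hlt
    omega) hF (by
    intro p hp
    by_cases h6 : ∃ C ∈ F, p ∈ C
    · exact Or.inr h6
    · push Not at h6
      exact Or.inl (mem_filter.mpr ⟨hp, h6⟩))
  have h7 : (4 * #F + c) * #P = 4 * #F * #P + c * #P := by ring
  have h8 : 4 * (#F + 1) * #P = 4 * #F * #P + 4 * #P := by ring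
  omega

/-- **many disjoint large convex polygons** -/
theorem many {P : Finset Pt} (hg : GenPos P) (hn : P.Nonempty) (m : ℕ)
    (h : 4 * m * #P ≤ halvingNumber P) :
    ∃ F : Finset (Finset Pt), #F = m ∧ (F : Set (Finset Pt)).PairwiseDisjoint id ∧
      ∀ C ∈ F, C ⊆ P ∧ InConvexPosition C ∧ halvingNumber P ≤ #P * #C := by
  classical
  have hn' : 0 < #P := card_pos.mpr hn
  induction m with
  | zero => exact ⟨∅, rfl, by simp, by simp⟩
  | succ m ih =>
    have h0 : 4 * (m + 1) * #P = 4 * m * #P + 4 * #P := by ring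
    obtain ⟨F, h1, h2, h3⟩ := ih (by omega)
    obtain ⟨X, hX1, hX2, hX3, hX4⟩ := exists_pos hg F (fun C hC => (h3 C hC).2.1)
      (by rw [h1]; exact h) hn'
    have hXne : X ≠ ∅ := by
      rintro rfl
      rw [card_empty, Nat.mul_zero] at hX4
      omega
    have hXF : X ∉ F := by
      intro hcon
      exact hXne (disjoint_self.mp (hX3 X hcon))
    refine ⟨insert X F, ?_, ?_, ?_⟩
    · rw [card_insert_of_notMem hXF, h1]
    · rw [coe_insert, Set.pairwiseDisjoint_insert]
      exact ⟨h2, fun C hC _ => hX3 C (mem_coe.mp hC)⟩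
    · intro C hC
      rcases mem_insert.mp hC with rfl | hC
      · exact ⟨hX1, hX2, hX4⟩
      · exact h3 C hC

end Vale.Agent.P065.R2.H671
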