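import Vale.Agent.P065.R2.H671.Dir
import Vale.Agent.P065.R2.H671.Main

/-! P065: the staircase of disjoint cups and caps (helper671) -/

set_option autoImplicit false

namespace Vale.Agent.P065.R2.H671

open Finset Vale.Agent.P065 Vale.Agent.P065.UB Vale.Agent.P065.U.H792.Trans

theorem exists_mx (w : Pt) (Q : Finset Pt) :
    ∃ C, C ⊆ Q ∧ IsCup w C ∧ ∀ X, X ⊆ Q → IsCup w X → #X ≤ #C := by
  classical
  obtain ⟨C, hC, hmax⟩ := Finset.exists_max_image ({X ∈ Q.powerset | IsCup w X} : Finset (Finset Pt))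
    (fun X => #X) ⟨∅, mem_filter.mpr ⟨mem_powerset.mpr (empty_subset _), isCup_empty w⟩⟩
  obtain ⟨h1, h2⟩ := mem_filter.mp hC
  exact ⟨C, mem_powerset.mp h1, h2, fun X hX hc => hmax X (mem_filter.mpr
    ⟨mem_powerset.mpr hX, hc⟩)⟩

/-- a largest `w`-cup in `Q` -/
noncomputable def mx (w : Pt) (Q : Finset Pt) : Finset Pt := Classical.choose (exists_mx w Q)

theorem mx_sub (w : Pt) (Q : Finset Pt) : mx w Q ⊆ Q := (Classical.choose_spec (exists_mx w Q)).1

theorem mx_cup (w : Pt) (Q : Finset Pt) : IsCup w (mx w Q) :=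
  (Classical.choose_spec (exists_mx w Q)).2.1

theorem mx_max (w : Pt) (Q : Finset Pt) : ∀ X, X ⊆ Q → IsCup w X → #X ≤ #(mx w Q) :=
  (Classical.choose_spec (exists_mx w Q)).2.2

/-- the direction of the `j`-th piece -/
def dr (s : Bool) (u : Pt) : Pt := if s = true then u else -u

/-- the points used by the first `j` pieces -/
noncomputable def used (σ : ℕ → Bool) (u : Pt) (P : Finset Pt) : ℕ → Finset Pt
  | 0 => ∅
  | j + 1 => used σ u P j ∪ mx (dr (σ j) u) (P \ used σ u P j)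

/-- the `j`-th piece -/
noncomputable def pc (σ : ℕ → Bool) (u : Pt) (P : Finset Pt) (j : ℕ) : Finset Pt :=
  mx (dr (σ j) u) (P \ used σ u P j)

variable {σ : ℕ → Bool} {u : Pt} {P : Finset Pt}

theorem pc_sub (j : ℕ) : pc σ u P j ⊆ P \ used σ u P j := mx_sub _ _

theorem mem_used {x : Pt} {j : ℕ} : x ∈ used σ u P j ↔ ∃ i < j, x ∈ pc σ u P i := by
  induction j with
  | zero => simp [used]
  | succ j ih =>
    have e : used σ u P (j + 1) = used σ u P j ∪ pc σ u P j := rfl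
    rw [e, mem_union, ih]
    constructor
    · rintro (⟨i, hi, hx⟩ | hx)
      · exact ⟨i, by omega, hx⟩
      · exact ⟨j, by omega, hx⟩
    · rintro ⟨i, hi, hx⟩
      rcases Nat.lt_succ_iff_lt_or_eq.mp hi with h | h
      · exact Or.inl ⟨i, h, hx⟩
      · rw [h] at hx
        exact Or.inr hx

theorem pc_disjoint_of_lt {i j : ℕ} (h : i < j) : Disjoint (pc σ u P i) (pc σ u P j) := by
  rw [Finset.disjoint_left]
  intro x hx hx'
  exact (mem_sdiff.mp (pc_sub j hx')).2 (mem_used.mpr ⟨i, h, hx⟩)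

theorem pc_disjoint {i j : ℕ} (h : i ≠ j) : Disjoint (pc σ u P i) (pc σ u P j) := by
  rcases lt_or_gt_of_ne h with h' | h'
  · exact pc_disjoint_of_lt h'
  · exact (pc_disjoint_of_lt h').symm

theorem bound_aux (w : Pt) {R : Finset Pt} {r : ℕ} (hR : ∀ X, X ⊆ R → IsCup w X → #X ≤ r)
    (I : Finset ℕ) (D : ℕ → Finset Pt)
    (hD : ∀ i ∈ I, ∀ X, X ⊆ D i → IsCup w X → #X ≤ 2) :
    ∀ X, X ⊆ R ∪ I.biUnion D → IsCup w X → #X ≤ r + 2 * #I := by
  intro X hX hc
  have h1 : X ⊆ (X ∩ R) ∪ I.biUnion (fun i => X ∩ D i) := by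
    intro x hx
    rcases mem_union.mp (hX hx) with h | h
    · exact mem_union_left _ (mem_inter.mpr ⟨hx, h⟩)
    · obtain ⟨i, hi, hxi⟩ := mem_biUnion.mp h
      exact mem_union_right _ (mem_biUnion.mpr ⟨i, hi, mem_inter.mpr ⟨hx, hxi⟩⟩)
  have h2 := (card_le_card h1).trans (card_union_le _ _)
  have h3 := hR (X ∩ R) inter_subset_right (hc.mono inter_subset_left)
  have h4 : #(I.biUnion (fun i => X ∩ D i)) ≤ 2 * #I := by
    refine card_biUnion_le.trans ?_
    calc ∑ i ∈ I, #(X ∩ D i) ≤ ∑ i ∈ I, 2 := by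
          apply sum_le_sum
          intro i hi
          exact hD i hi (X ∩ D i) inter_subset_right (hc.mono inter_subset_left)
      _ = 2 * #I := by rw [sum_const, smul_eq_mul, Nat.mul_comm]
  omega

/-- **the staircase** -/
theorem stairs (hg : GenPos P) (hu : u ≠ 0) (hP : Trv u P) (σ : ℕ → Bool) (j : ℕ) :
    2 * halvingNumber P ≤ (#(pc σ u P j) + 2 * j) * #P ∧
      ∀ k, 1 ≤ k → k + 1 ≤ #P → kSetNumber P k ≤ (#(pc σ u P j) + 2 * j) * #P + 2 := by
  classical
  -- the pieces so far, by type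
  obtain ⟨I, hI⟩ : ∃ I : Finset ℕ, I = ({i ∈ range j | σ i = true} : Finset ℕ) := ⟨_, rfl⟩
  obtain ⟨J, hJ⟩ : ∃ J : Finset ℕ, J = ({i ∈ range j | ¬ σ i = true} : Finset ℕ) := ⟨_, rfl⟩
  have hIJ : #I + #J = j := by
    rw [hI, hJ, Finset.card_filter_add_card_filter_not, card_range]
  have hsubP : ∀ i, pc σ u P i ⊆ P := fun i => (pc_sub i).trans sdiff_subset
  have hcupI : ∀ i ∈ I, ∀ X, X ⊆ pc σ u P i → IsCup (-u) X → #X ≤ 2 := by
    intro i hi X hX hc
    rw [hI] at hi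
    have h1 : IsCup (dr (σ i) u) (pc σ u P i) := mx_cup _ _
    have h2 : dr (σ i) u = u := by
      unfold dr
      rw [if_pos (mem_filter.mp hi).2]
    rw [h2] at h1
    exact card_cup_cap hu hP (hX.trans (hsubP i)) (h1.mono hX) hc
  have hcupJ : ∀ i ∈ J, ∀ X, X ⊆ pc σ u P i → IsCup u X → #X ≤ 2 := by
    intro i hi X hX hc
    rw [hJ] at hi
    have h1 : IsCup (dr (σ i) u) (pc σ u P i) := mx_cup _ _
    have h2 : dr (σ i) u = -u := by
      unfold dr
      rw [if_neg (mem_filter.mp hi).2]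
    rw [h2] at h1
    exact card_cup_cap hu hP (hX.trans (hsubP i)) hc (h1.mono hX)
  have hmax : ∀ X, X ⊆ P \ used σ u P j → IsCup (dr (σ j) u) X → #X ≤ #(pc σ u P j) :=
    mx_max _ _
  have hemp : ∀ w : Pt, ∀ X : Finset Pt, X ⊆ ∅ → IsCup w X → #X ≤ 0 := by
    intro w X hX _
    rw [subset_empty.mp hX, card_empty]
  have hmem : ∀ p ∈ P, p ∈ P \ used σ u P j ∨ p ∈ I.biUnion (pc σ u P) ∨
      p ∈ J.biUnion (pc σ u P) := by
    intro p hp
    by_cases h : p ∈ used σ u P j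
    · obtain ⟨i, hi, hx⟩ := mem_used.mp h
      by_cases hs : σ i = true
      · refine Or.inr (Or.inl (mem_biUnion.mpr ⟨i, ?_, hx⟩))
        rw [hI]
        exact mem_filter.mpr ⟨mem_range.mpr hi, hs⟩
      · refine Or.inr (Or.inr (mem_biUnion.mpr ⟨i, ?_, hx⟩))
        rw [hJ]
        exact mem_filter.mpr ⟨mem_range.mpr hi, hs⟩
    · exact Or.inl (mem_sdiff.mpr ⟨hp, h⟩)
  by_cases hs : σ j = true
  · have hd : dr (σ j) u = u := by
      unfold dr
      rw [if_pos hs]
    rw [hd] at hmax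
    have hA := bound_aux u hmax J (pc σ u P) hcupJ
    have hB := bound_aux (-u) (hemp (-u)) I (pc σ u P) hcupI
    have hc : ∀ p ∈ P, p ∈ (P \ used σ u P j) ∪ J.biUnion (pc σ u P) ∨
        p ∈ ∅ ∪ I.biUnion (pc σ u P) := by
      intro p hp
      rcases hmem p hp with h | h | h
      · exact Or.inl (mem_union_left _ h)
      · exact Or.inr (mem_union_right _ h)
      · exact Or.inl (mem_union_right _ h)
    have e : #(pc σ u P j) + 2 * #J + (0 + 2 * #I) = #(pc σ u P j) + 2 * j := by omega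
    refine ⟨?_, ?_⟩
    · rw [← e]
      exact halving_dir hg hu hP _ _ _ _ hA hB hc
    · intro k hk1 hk2
      rw [← e]
      exact kset_dir hg hu hP _ _ _ _ hA hB hc hk1 hk2
  · have hd : dr (σ j) u = -u := by
      unfold dr
      rw [if_neg hs]
    rw [hd] at hmax
    have hA := bound_aux u (hemp u) J (pc σ u P) hcupJ
    have hB := bound_aux (-u) hmax I (pc σ u P) hcupI
    have hc : ∀ p ∈ P, p ∈ ∅ ∪ J.biUnion (pc σ u P) ∨
        p ∈ (P \ used σ u P j) ∪ I.biUnion (pc σ u P) := by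
      intro p hp
      rcases hmem p hp with h | h | h
      · exact Or.inr (mem_union_left _ h)
      · exact Or.inr (mem_union_right _ h)
      · exact Or.inl (mem_union_right _ h)
    have e : 0 + 2 * #J + (#(pc σ u P j) + 2 * #I) = #(pc σ u P j) + 2 * j := by omega
    refine ⟨?_, ?_⟩
    · rw [← e]
      exact halving_dir hg hu hP _ _ _ _ hA hB hc
    · intro k hk1 hk2
      rw [← e]
      exact kset_dir hg hu hP _ _ _ _ hA hB hc hk1 hk2

end Vale.Agent.P065.R2.H671
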