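import Vale.Agent.P065.R2.H671.Pos
import Vale.Agent.P065.U.H792.Trans

/-! P065: linear maps of determinant one, cups in a direction (helper671) -/

set_option autoImplicit false

namespace Vale.Agent.P065.R2.H671

open Finset Vale.Agent.P065 Vale.Agent.P065.UB Vale.Agent.P065.U.H792.Trans

/-- a linear map of the plane -/
def lm (α β γ δ : ℝ) (z : Pt) : Pt := (α * z.1 + β * z.2, γ * z.1 + δ * z.2)

variable {α β γ δ : ℝ}

theorem lm_inv (h : α * δ - β * γ = 1) (z : Pt) : lm δ (-β) (-γ) α (lm α β γ δ z) = z := by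
  unfold lm
  apply Prod.ext
  · simp only
    linear_combination z.1 * h
  · simp only
    linear_combination z.2 * h

theorem lm_inj (h : α * δ - β * γ = 1) : Function.Injective (lm α β γ δ) :=
  Function.LeftInverse.injective (lm_inv h)

theorem isLinearMap_lm : IsLinearMap ℝ (lm α β γ δ) := by
  constructor
  · intro x y
    unfold lm
    apply Prod.ext
    · simp only [Prod.fst_add, Prod.snd_add]
      ring
    · simp only [Prod.fst_add, Prod.snd_add]
      ring
  · intro c x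
    unfold lm
    apply Prod.ext
    · simp only [Prod.smul_fst, Prod.smul_snd, smul_eq_mul]
      ring
    · simp only [Prod.smul_fst, Prod.smul_snd, smul_eq_mul]
      ring

theorem lm_sub_smul (x u : Pt) (t : ℝ) :
    lm α β γ δ (x - t • u) = lm α β γ δ x - t • lm α β γ δ u := by
  rw [isLinearMap_lm.map_sub, isLinearMap_lm.map_smul]

theorem orient_lm (h : α * δ - β * γ = 1) (a b c : Pt) :
    orient (lm α β γ δ a) (lm α β γ δ b) (lm α β γ δ c) = orient a b c := by
  unfold orient lm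
  linear_combination ((b.1 - a.1) * (c.2 - a.2) - (b.2 - a.2) * (c.1 - a.1)) * h

theorem isHalving_lm (h : α * δ - β * γ = 1) {P : Finset Pt} {a b : Pt}
    (hab : IsHalving P a b) :
    IsHalving (P.image (lm α β γ δ)) (lm α β γ δ a) (lm α β γ δ b) := by
  obtain ⟨h1, h2, h3⟩ := hab
  have e1 : #{c ∈ P.image (lm α β γ δ) | 0 < orient (lm α β γ δ a) (lm α β γ δ b) c} =
      #{c ∈ P | 0 < orient a b c} := by
    rw [Finset.filter_image, card_image_of_injective _ (lm_inj h)]
    congr 1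
    apply filter_congr
    intro c _
    rw [orient_lm h]
  have e2 : #{c ∈ P.image (lm α β γ δ) | orient (lm α β γ δ a) (lm α β γ δ b) c < 0} =
      #{c ∈ P | orient a b c < 0} := by
    rw [Finset.filter_image, card_image_of_injective _ (lm_inj h)]
    congr 1
    apply filter_congr
    intro c _
    rw [orient_lm h]
  refine ⟨fun h' => h1 (lm_inj h h'), ?_, ?_⟩
  · rw [e1, card_image_of_injective _ (lm_inj h)]
    exact h2
  · rw [e2, card_image_of_injective _ (lm_inj h)]
    exact h3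

theorem halvingNumber_lm (h : α * δ - β * γ = 1) (P : Finset Pt) :
    halvingNumber P ≤ halvingNumber (P.image (lm α β γ δ)) := by
  classical
  unfold halvingNumber
  apply Finset.card_le_card_of_injOn (fun e => e.image (lm α β γ δ))
  · intro e he
    obtain ⟨he1, a, b, rfl, hab⟩ := mem_filter.mp (mem_coe.mp he)
    obtain ⟨hsub, hcard⟩ := mem_powersetCard.mp he1
    refine mem_coe.mpr (mem_filter.mpr ⟨mem_powersetCard.mpr ⟨image_subset_image hsub, ?_⟩,
      lm α β γ δ a, lm α β γ δ b, ?_, ?_⟩)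
    · rw [card_image_of_injective _ (lm_inj h)]
      exact hcard
    · simp only [image_insert, image_singleton]
    · exact isHalving_lm h hab
  · intro e _ e' _ h'
    exact image_injective (lm_inj h) h'

theorem isKSet_lm (h : α * δ - β * γ = 1) {P S : Finset Pt} {k : ℕ} (hS : IsKSet P k S) :
    IsKSet (P.image (lm α β γ δ)) k (S.image (lm α β γ δ)) := by
  obtain ⟨hs, hk, a, b, c, hab, h1, h2⟩ := hS
  have key : ∀ z : Pt, (a * δ - b * γ) * (lm α β γ δ z).1 + (b * α - a * β) * (lm α β γ δ z).2 =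
      a * z.1 + b * z.2 := by
    intro z
    unfold lm
    simp only
    linear_combination (a * z.1 + b * z.2) * h
  refine ⟨image_subset_image hs, ?_, a * δ - b * γ, b * α - a * β, c, ?_, ?_, ?_⟩
  · rw [card_image_of_injective _ (lm_inj h)]
    exact hk
  · by_contra hcon
    push Not at hcon
    obtain ⟨e1, e2⟩ := hcon
    have ea : a = 0 := by linear_combination α * e1 + γ * e2 - a * h
    have eb : b = 0 := by linear_combination β * e1 + δ * e2 - b * h
    rcases hab with h' | h'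
    · exact h' ea
    · exact h' eb
  · intro z hz
    obtain ⟨z0, hz0, rfl⟩ := mem_image.mp hz
    rw [key]
    exact h1 z0 hz0
  · intro z hz hz'
    obtain ⟨z0, hz0, rfl⟩ := mem_image.mp hz
    rw [key]
    exact h2 z0 hz0 (fun h => hz' (mem_image_of_mem _ h))

theorem kSetNumber_lm (h : α * δ - β * γ = 1) (P : Finset Pt) (k : ℕ) :
    kSetNumber P k ≤ kSetNumber (P.image (lm α β γ δ)) k := by
  classical
  unfold kSetNumber
  apply Finset.card_le_card_of_injOn (fun S => S.image (lm α β γ δ))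
  · intro S hS
    obtain ⟨h1, h2⟩ := mem_filter.mp (mem_coe.mp hS)
    have h3 := isKSet_lm h h2
    exact mem_coe.mpr (mem_filter.mpr ⟨mem_powerset.mpr h3.1, h3⟩)
  · intro e _ e' _ h'
    exact image_injective (lm_inj h) h'

theorem good_lm (h : α * δ - β * γ = 1) {P : Finset Pt} (hg : GenPos P)
    (hx : ∀ p ∈ P, ∀ q ∈ P, (lm α β γ δ p).1 = (lm α β γ δ q).1 → p = q) :
    Good (P.image (lm α β γ δ)) := by
  constructor
  · intro p hp q hq h'
    obtain ⟨p0, hp0, rfl⟩ := mem_image.mp hp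
    obtain ⟨q0, hq0, rfl⟩ := mem_image.mp hq
    rw [hx p0 hp0 q0 hq0 h']
  · intro m a ha b hb c hc hab hac hbc h1 h2
    obtain ⟨a0, ha0, rfl⟩ := mem_image.mp ha
    obtain ⟨b0, hb0, rfl⟩ := mem_image.mp hb
    obtain ⟨c0, hc0, rfl⟩ := mem_image.mp hc
    have hne : γ - m * α ≠ 0 ∨ δ - m * β ≠ 0 := by
      by_contra hcon
      push Not at hcon
      obtain ⟨e1, e2⟩ := hcon
      have : (1 : ℝ) = 0 := by linear_combination α * e2 - β * e1 - h
      exact one_ne_zero this
    unfold ht lm at h1 h2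
    simp only at h1 h2
    exact genpos_lin hg hne ha0 hb0 hc0 (fun h => hab (by rw [h])) (fun h => hac (by rw [h]))
      (fun h => hbc (by rw [h])) (by linarith) (by linarith)

/-! ### cups in a direction -/

theorem IsCup.mono {u : Pt} {X C : Finset Pt} (h : IsCup u C) (hX : X ⊆ C) : IsCup u X := by
  intro x hx t ht hmem
  have h1 : {y : Pt | y ∈ X ∧ y ≠ x} ⊆ {y : Pt | y ∈ C ∧ y ≠ x} :=
    fun y hy => ⟨hX hy.1, hy.2⟩
  exact h x (hX hx) t ht (convexHull_mono h1 hmem)

theorem isCup_empty (u : Pt) : IsCup u ∅ := by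
  intro x hx
  simp at hx

theorem IsCup.pull (h : α * δ - β * γ = 1) {u : Pt} {X : Finset Pt}
    (hc : IsCup (lm α β γ δ u) (X.image (lm α β γ δ))) : IsCup u X := by
  intro x hx t ht hmem
  apply hc (lm α β γ δ x) (mem_image_of_mem _ hx) t ht
  rw [← lm_sub_smul]
  have h1 : lm α β γ δ (x - t • u) ∈ lm α β γ δ '' convexHull ℝ {y : Pt | y ∈ X ∧ y ≠ x} :=
    ⟨_, hmem, rfl⟩
  rw [isLinearMap_lm.image_convexHull] at h1
  refine convexHull_mono ?_ h1
  rintro z ⟨y, ⟨hy, hne⟩, rfl⟩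
  exact ⟨mem_image_of_mem _ hy, fun h' => hne (lm_inj h h')⟩

theorem IsCup.push (h : α * δ - β * γ = 1) {u : Pt} {X : Finset Pt} (hc : IsCup u X) :
    IsCup (lm α β γ δ u) (X.image (lm α β γ δ)) := by
  classical
  have h' : δ * α - -β * -γ = 1 := by linear_combination h
  apply IsCup.pull h'
  rw [lm_inv h, image_image]
  have e : lm δ (-β) (-γ) α ∘ lm α β γ δ = id := funext (lm_inv h)
  rw [e, image_id]
  exact hc

theorem isCup_of_cup {X : Finset Pt} (hx : ∀ p ∈ X, ∀ q ∈ X, p.1 = q.1 → p = q) (hc : Cup X) :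
    IsCup (0, 1) X := by
  classical
  intro v hv t ht0 hmem
  obtain ⟨m, hm1, hm2⟩ := Order.exists_between_finsets
    (({u ∈ X | u.1 < v.1} : Finset Pt).image (fun u => sl u v))
    (({w ∈ X | v.1 < w.1} : Finset Pt).image (fun w => sl v w)) (by
      intro a ha b hb
      obtain ⟨u, hu, rfl⟩ := mem_image.mp ha
      obtain ⟨w, hw, rfl⟩ := mem_image.mp hb
      obtain ⟨hu1, hu2⟩ := mem_filter.mp hu
      obtain ⟨hw1, hw2⟩ := mem_filter.mp hw
      exact hc u hu1 v hv w hw1 hu2 hw2)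
  have hsub : {y : Pt | y ∈ X ∧ y ≠ v} ⊆ {z : Pt | ht m v < ht m z} := by
    rintro y ⟨hy, hne⟩
    rcases lt_trichotomy y.1 v.1 with h | h | h
    · exact (ht_lt_iff_right h m).mpr (hm1 _ (mem_image.mpr ⟨y, mem_filter.mpr ⟨hy, h⟩, rfl⟩))
    · exact absurd (hx y hy v hv h) hne
    · refine (ht_lt_iff_left h m).mpr ?_
      rw [sl_comm]
      exact hm2 _ (mem_image.mpr ⟨y, mem_filter.mpr ⟨hy, h⟩, rfl⟩)
  have h1 : ht m v < ht m (v - t • ((0, 1) : Pt)) :=
    convexHull_min hsub (convex_halfSpace_gt (isLinearMap_ht m) (ht m v)) hmem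
  have h2 : ht m (v - t • ((0, 1) : Pt)) = ht m v - t := by
    unfold ht
    simp only [Prod.fst_sub, Prod.snd_sub, Prod.smul_fst, Prod.smul_snd, smul_eq_mul]
    ring
  linarith

theorem isCup_of_cap {X : Finset Pt} (hx : ∀ p ∈ X, ∀ q ∈ X, p.1 = q.1 → p = q) (hc : Cap X) :
    IsCup (0, -1) X := by
  classical
  intro v hv t ht0 hmem
  obtain ⟨m, hm1, hm2⟩ := Order.exists_between_finsets
    (({w ∈ X | v.1 < w.1} : Finset Pt).image (fun w => sl v w))
    (({u ∈ X | u.1 < v.1} : Finset Pt).image (fun u => sl u v)) (by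
      intro a ha b hb
      obtain ⟨w, hw, rfl⟩ := mem_image.mp ha
      obtain ⟨u, hu, rfl⟩ := mem_image.mp hb
      obtain ⟨hu1, hu2⟩ := mem_filter.mp hu
      obtain ⟨hw1, hw2⟩ := mem_filter.mp hw
      exact hc u hu1 v hv w hw1 hu2 hw2)
  have hsub : {y : Pt | y ∈ X ∧ y ≠ v} ⊆ {z : Pt | ht m z < ht m v} := by
    rintro y ⟨hy, hne⟩
    rcases lt_trichotomy y.1 v.1 with h | h | h
    · refine (ht_lt_iff_left h m).mpr ?_
      rw [sl_comm]
      exact hm2 _ (mem_image.mpr ⟨y, mem_filter.mpr ⟨hy, h⟩, rfl⟩)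
    · exact absurd (hx y hy v hv h) hne
    · exact (ht_lt_iff_right h m).mpr (hm1 _ (mem_image.mpr ⟨y, mem_filter.mpr ⟨hy, h⟩, rfl⟩))
  have h1 : ht m (v - t • ((0, -1) : Pt)) < ht m v :=
    convexHull_min hsub (convex_halfSpace_lt (isLinearMap_ht m) (ht m v)) hmem
  have h2 : ht m (v - t • ((0, -1) : Pt)) = ht m v + t := by
    unfold ht
    simp only [Prod.fst_sub, Prod.snd_sub, Prod.smul_fst, Prod.smul_snd, smul_eq_mul]
    ring
  linarith

theorem cup_of_isCup {X : Finset Pt} (hc : IsCup (0, 1) X) : Cup X := by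
  intro u hu v hv w hw huv hvw
  by_contra hcon
  push Not at hcon
  have h1 := Lf_le huv hvw hcon
  apply hc v hv (v.2 - Lf u w v.1) (by linarith)
  have hK : Convex ℝ (convexHull ℝ {y : Pt | y ∈ X ∧ y ≠ v}) := convex_convexHull ℝ _
  have h2 : ((v.1, Lf u w v.1) : Pt) ∈ convexHull ℝ {y : Pt | y ∈ X ∧ y ≠ v} :=
    on_seg hK (subset_convexHull ℝ _ ⟨hu, fun h => by rw [h] at huv; exact lt_irrefl _ huv⟩)
      (subset_convexHull ℝ _ ⟨hw, fun h => by rw [h] at hvw; exact lt_irrefl _ hvw⟩)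
      (huv.trans hvw) huv.le hvw.le
  have h3 : v - (v.2 - Lf u w v.1) • ((0, 1) : Pt) = ((v.1, Lf u w v.1) : Pt) := by
    apply Prod.ext
    · simp only [Prod.fst_sub, Prod.smul_fst, smul_eq_mul]
      ring
    · simp only [Prod.snd_sub, Prod.smul_snd, smul_eq_mul]
      ring
  rw [h3]
  exact h2

theorem cap_of_isCup {X : Finset Pt} (hc : IsCup (0, -1) X) : Cap X := by
  intro u hu v hv w hw huv hvw
  by_contra hcon
  push Not at hcon
  have h1 := le_Lf huv hvw hcon
  apply hc v hv (Lf u w v.1 - v.2) (by linarith)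
  have hK : Convex ℝ (convexHull ℝ {y : Pt | y ∈ X ∧ y ≠ v}) := convex_convexHull ℝ _
  have h2 : ((v.1, Lf u w v.1) : Pt) ∈ convexHull ℝ {y : Pt | y ∈ X ∧ y ≠ v} :=
    on_seg hK (subset_convexHull ℝ _ ⟨hu, fun h => by rw [h] at huv; exact lt_irrefl _ huv⟩)
      (subset_convexHull ℝ _ ⟨hw, fun h => by rw [h] at hvw; exact lt_irrefl _ hvw⟩)
      (huv.trans hvw) huv.le hvw.le
  have h3 : v - (Lf u w v.1 - v.2) • ((0, -1) : Pt) = ((v.1, Lf u w v.1) : Pt) := by
    apply Prod.ext
    · simp only [Prod.fst_sub, Prod.smul_fst, smul_eq_mul]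
      ring
    · simp only [Prod.snd_sub, Prod.smul_snd, smul_eq_mul]
      ring
  rw [h3]
  exact h2

end Vale.Agent.P065.R2.H671
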