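import Vale.Agent.P065.R2.H671.Chain
import Vale.Agent.P065.U.H792.TransB

/-! P065: edges of a set that is a union of a set without large cups and one without large caps
(helper671) -/

set_option autoImplicit false

namespace Vale.Agent.P065.R2.H671

open Finset Vale.Agent.P065.UB Vale.Agent.P065.U.H792.Trans

variable {P : Finset Pt} {k : ℕ}

/-- the mirror image of an edge -/
theorem mir_mem_Ed [DecidableEq Pt] (hP : Good P) {e : Eg} (hk : k + 2 ≤ #P)
    (he : e ∈ Ed P (#P - k - 2)) : (mir e.1, mir e.2) ∈ Ed (P.image mir) k := by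
  classical
  obtain ⟨h1, h2, h3, h4⟩ := mem_Ed.mp he
  refine mem_Ed.mpr ⟨mem_image_of_mem mir h1, mem_image_of_mem mir h2, h3, ?_⟩
  have e1 : g0 (P.image mir) (sl (mir e.1) (mir e.2)) (mir e.1) =
      #{u ∈ P | ht (sl e.1 e.2) e.1 < ht (sl e.1 e.2) u} := by
    unfold g0
    rw [sl_mir]
    have e0 : ({u ∈ P.image mir | ht (-sl e.1 e.2) u < ht (-sl e.1 e.2) (mir e.1)} :
        Finset Pt) = ({u ∈ P | ht (sl e.1 e.2) e.1 < ht (sl e.1 e.2) u} :
        Finset Pt).image mir := by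
      ext u
      simp only [mem_filter, mem_image]
      constructor
      · rintro ⟨⟨u0, hu0, rfl⟩, h5⟩
        rw [ht_mir, ht_mir] at h5
        exact ⟨u0, ⟨hu0, by linarith⟩, rfl⟩
      · rintro ⟨u0, ⟨hu0, h5⟩, rfl⟩
        refine ⟨⟨u0, hu0, rfl⟩, ?_⟩
        rw [ht_mir, ht_mir]
        linarith
    rw [e0, card_image_of_injective _ mir_inj]
  simp only
  rw [e1]
  unfold g0 at h4
  set m := sl e.1 e.2 with hm
  have hne : e.1 ≠ e.2 := fun h => by rw [h] at h3; exact lt_irrefl _ h3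
  have e2 : #P = #{u ∈ P | ht m u < ht m e.1} + #{u ∈ P | ht m e.1 < ht m u} +
      #{u ∈ P | ht m u = ht m e.1} := by
    have a1 := Finset.card_filter_add_card_filter_not (s := P)
      (p := fun u => ht m u < ht m e.1)
    have a2 := Finset.card_filter_add_card_filter_not
      (s := ({u ∈ P | ¬ ht m u < ht m e.1} : Finset Pt)) (p := fun u => ht m e.1 < ht m u)
    have a3 : ({u ∈ ({u ∈ P | ¬ ht m u < ht m e.1} : Finset Pt) | ht m e.1 < ht m u} :
        Finset Pt) = {u ∈ P | ht m e.1 < ht m u} := by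
      ext u
      simp only [mem_filter]
      constructor
      · rintro ⟨⟨h1, _⟩, h2⟩
        exact ⟨h1, h2⟩
      · rintro ⟨h1, h2⟩
        exact ⟨⟨h1, by linarith⟩, h2⟩
    have a4 : ({u ∈ ({u ∈ P | ¬ ht m u < ht m e.1} : Finset Pt) | ¬ ht m e.1 < ht m u} :
        Finset Pt) = {u ∈ P | ht m u = ht m e.1} := by
      ext u
      simp only [mem_filter]
      constructor
      · rintro ⟨⟨h1, h2⟩, h3⟩
        exact ⟨h1, by linarith⟩
      · rintro ⟨h1, h2⟩
        exact ⟨⟨h1, by linarith⟩, by linarith⟩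
    rw [a3, a4] at a2
    omega
  have e3 : ({u ∈ P | ht m u = ht m e.1} : Finset Pt) = {e.1, e.2} := by
    ext u
    simp only [mem_filter, mem_insert, mem_singleton]
    constructor
    · rintro ⟨hu, h5⟩
      by_contra hcon
      push Not at hcon
      exact hP.gen m e.1 h1 e.2 h2 u hu hne (Ne.symm hcon.1) (Ne.symm hcon.2)
        (edge_ht e h3).symm h5.symm
    · rintro (rfl | rfl)
      · exact ⟨h1, rfl⟩
      · exact ⟨h2, edge_ht e h3⟩
  have e4 : #({e.1, e.2} : Finset Pt) = 2 := card_pair hne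
  rw [e3, e4] at e2
  omega

theorem mir_mir (z : Pt) : mir (mir z) = z := by
  unfold mir
  exact Prod.ext rfl (neg_neg _)

theorem noCup_mir [DecidableEq Pt] {B : Finset Pt} {b : ℕ} (hB : NoCap B b) :
    NoCup (B.image mir) b := by
  intro X hX hc
  have h1 : X.image mir ⊆ B := by
    intro z hz
    obtain ⟨x, hx, rfl⟩ := mem_image.mp hz
    obtain ⟨y, hy, rfl⟩ := mem_image.mp (hX hx)
    rw [mir_mir]
    exact hy
  have h2 : Cap (X.image mir) := by
    intro u hu v hv w hw huv hvw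
    obtain ⟨u0, hu0, rfl⟩ := mem_image.mp hu
    obtain ⟨v0, hv0, rfl⟩ := mem_image.mp hv
    obtain ⟨w0, hw0, rfl⟩ := mem_image.mp hw
    rw [sl_mir, sl_mir]
    have := hc u0 hu0 v0 hv0 w0 hw0 huv hvw
    linarith
  have h3 := hB _ h1 h2
  rw [card_image_of_injective _ mir_inj] at h3
  exact h3

/-- **edges whose left end is in a set without large caps** -/
theorem card_fst_cap (hP : Good P) (hk : k + 2 ≤ #P) {B : Finset Pt} {b : ℕ} (hB : NoCap B b)
    [DecidableEq Pt] : #{e ∈ Ed P k | e.1 ∈ B} ≤ b * (#P - k - 1) := by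
  classical
  have h1 := card_fst (k := #P - k - 2) (good_mir hP) (noCup_mir hB)
  have h2 : #P - k - 2 + 1 = #P - k - 1 := by omega
  rw [h2] at h1
  refine le_trans ?_ h1
  apply card_le_card_of_injOn (fun e => (mir e.1, mir e.2))
  · intro e he
    obtain ⟨h3, h4⟩ := mem_filter.mp (mem_coe.mp he)
    have h5 : e ∈ Ed P (#P - (#P - k - 2) - 2) := by
      have : #P - (#P - k - 2) - 2 = k := by omega
      rw [this]
      exact h3
    exact mem_coe.mpr (mem_filter.mpr ⟨mir_mem_Ed hP (by omega) h5, mem_image_of_mem mir h4⟩)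
  · intro e _ e' _ h
    obtain ⟨h1, h2⟩ := Prod.mk.inj h
    exact Prod.ext (mir_inj h1) (mir_inj h2)

/-- **edges of a union** of a set without large cups and a set without large caps -/
theorem card_Ed_le (hP : Good P) (hk : k + 2 ≤ #P) {A B : Finset Pt} {a b : ℕ}
    (hA : NoCup A a) (hB : NoCap B b) (hAB : ∀ p ∈ P, p ∈ A ∨ p ∈ B) :
    #(Ed P k) ≤ a * (k + 1) + b * (#P - k - 1) := by
  classical
  obtain ⟨S1, hS1⟩ : ∃ S : Finset Eg, S = ({e ∈ Ed P k | e.1 ∈ A} : Finset Eg) := ⟨_, rfl⟩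
  obtain ⟨S2, hS2⟩ : ∃ S : Finset Eg, S = ({e ∈ Ed P k | e.1 ∈ B} : Finset Eg) := ⟨_, rfl⟩
  have h1 : #S1 ≤ a * (k + 1) := by
    rw [hS1]
    convert card_fst (k := k) hP hA
  have h2 : #S2 ≤ b * (#P - k - 1) := by
    rw [hS2]
    convert card_fst_cap (k := k) hP hk hB
  have h3 : Ed P k ⊆ S1 ∪ S2 := by
    intro e he
    rw [mem_union, hS1, hS2, mem_filter, mem_filter]
    rcases hAB e.1 (mem_Ed.mp he).1 with h | h
    · exact Or.inl ⟨he, h⟩
    · exact Or.inr ⟨he, h⟩
  have h4 := (card_le_card h3).trans (card_union_le _ _)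
  omega

/-! ### caps and cups -/

theorem card_le_two {X : Finset Pt} (hx : ∀ p ∈ X, ∀ q ∈ X, p.1 = q.1 → p = q)
    (h : ∀ u ∈ X, ∀ v ∈ X, ∀ w ∈ X, u.1 < v.1 → v.1 < w.1 → False) : #X ≤ 2 := by
  classical
  by_contra hcon
  push Not at hcon
  obtain ⟨a, ha, b, hb, c, hc, hab, hac, hbc⟩ := two_lt_card.mp hcon
  have h1 : a.1 ≠ b.1 := fun h => hab (hx a ha b hb h)
  have h2 : a.1 ≠ c.1 := fun h => hac (hx a ha c hc h)
  have h3 : b.1 ≠ c.1 := fun h => hbc (hx b hb c hc h)
  rcases lt_or_gt_of_ne h1 with h4 | h4 <;> rcases lt_or_gt_of_ne h2 with h5 | h5 <;>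
    rcases lt_or_gt_of_ne h3 with h6 | h6
  · exact h a ha b hb c hc h4 h6
  · exact h a ha c hc b hb h5 h6
  · linarith
  · exact h c hc a ha b hb h5 h4
  · exact h b hb a ha c hc h4 h5
  · linarith
  · exact h b hb c hc a ha h6 h5
  · exact h c hc b hb a ha h6 h4

theorem noCup_of_cap {C : Finset Pt} (hx : ∀ p ∈ C, ∀ q ∈ C, p.1 = q.1 → p = q) (hC : Cap C) :
    NoCup C 2 := by
  intro X hX hc
  apply card_le_two (fun p hp q hq => hx p (hX hp) q (hX hq))
  intro u hu v hv w hw huv hvw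
  have h1 := hc u hu v hv w hw huv hvw
  have h2 := hC u (hX hu) v (hX hv) w (hX hw) huv hvw
  linarith

theorem noCap_of_cup {C : Finset Pt} (hx : ∀ p ∈ C, ∀ q ∈ C, p.1 = q.1 → p = q) (hC : Cup C) :
    NoCap C 2 := by
  intro X hX hc
  apply card_le_two (fun p hp q hq => hx p (hX hp) q (hX hq))
  intro u hu v hv w hw huv hvw
  have h1 := hc u hu v hv w hw huv hvw
  have h2 := hC u (hX hu) v (hX hv) w (hX hw) huv hvw
  linarith

theorem noCup_union [DecidableEq Pt] {A B : Finset Pt} {a b : ℕ} (hA : NoCup A a)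
    (hB : NoCup B b) : NoCup (A ∪ B) (a + b) := by
  intro X hX hc
  have h1 := hA (X ∩ A) inter_subset_right (hc.mono inter_subset_left)
  have h2 := hB (X ∩ B) inter_subset_right (hc.mono inter_subset_left)
  have h3 : X ⊆ (X ∩ A) ∪ (X ∩ B) := by
    rw [← inter_union_distrib_left]
    exact subset_inter (Finset.Subset.refl _) hX
  have h4 := (card_le_card h3).trans (card_union_le _ _)
  omega

theorem noCap_union [DecidableEq Pt] {A B : Finset Pt} {a b : ℕ} (hA : NoCap A a)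
    (hB : NoCap B b) : NoCap (A ∪ B) (a + b) := by
  intro X hX hc
  have h1 := hA (X ∩ A) inter_subset_right (hc.mono inter_subset_left)
  have h2 := hB (X ∩ B) inter_subset_right (hc.mono inter_subset_left)
  have h3 : X ⊆ (X ∩ A) ∪ (X ∩ B) := by
    rw [← inter_union_distrib_left]
    exact subset_inter (Finset.Subset.refl _) hX
  have h4 := (card_le_card h3).trans (card_union_le _ _)
  omega

/-- many pieces, each split into a cap and a cup -/
theorem split_family [DecidableEq Pt] (F : Finset (Finset Pt))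
    (h : ∀ C ∈ F, ∃ U V : Finset Pt, NoCup U 2 ∧ NoCap V 2 ∧ ∀ p ∈ C, p ∈ U ∨ p ∈ V) :
    ∃ U V : Finset Pt, NoCup U (2 * #F) ∧ NoCap V (2 * #F) ∧
      ∀ C ∈ F, ∀ p ∈ C, p ∈ U ∨ p ∈ V := by
  classical
  induction F using Finset.induction_on with
  | empty =>
    refine ⟨∅, ∅, ?_, ?_, by simp⟩
    · intro X hX _
      rw [subset_empty.mp hX]
      simp
    · intro X hX _
      rw [subset_empty.mp hX]
      simp
  | insert C F hC ih =>
    obtain ⟨U, V, h1, h2, h3⟩ := ih (fun D hD => h D (mem_insert_of_mem hD))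
    obtain ⟨U', V', h1', h2', h3'⟩ := h C (mem_insert_self _ _)
    rw [card_insert_of_notMem hC]
    refine ⟨U ∪ U', V ∪ V', noCup_union h1 h1', noCap_union h2 h2', ?_⟩
    intro D hD p hp
    rw [mem_union, mem_union]
    rcases mem_insert.mp hD with rfl | hD
    · rcases h3' p hp with h4 | h4
      · exact Or.inl (Or.inr h4)
      · exact Or.inr (Or.inr h4)
    · rcases h3 D hD p hp with h4 | h4
      · exact Or.inl (Or.inl h4)
      · exact Or.inr (Or.inl h4)

/-- the main estimate for good sets -/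
theorem card_Ed_family [DecidableEq Pt] (hP : Good P) (hk : k + 2 ≤ #P) (A : Finset Pt)
    (F : Finset (Finset Pt)) (c : ℕ) (hA : NoCup A c) (hA' : NoCap A c)
    (h : ∀ C ∈ F, ∃ U V : Finset Pt, NoCup U 2 ∧ NoCap V 2 ∧ ∀ p ∈ C, p ∈ U ∨ p ∈ V)
    (hc : ∀ p ∈ P, p ∈ A ∨ ∃ C ∈ F, p ∈ C) :
    #(Ed P k) ≤ c * min (k + 1) (#P - k - 1) + 2 * #F * #P := by
  classical
  obtain ⟨U, V, h1, h2, h3⟩ := split_family F h
  have e1 := card_Ed_le (k := k) hP hk (noCup_union hA h1) h2 (by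
    intro p hp
    rw [mem_union]
    rcases hc p hp with h4 | ⟨C, hC, h4⟩
    · exact Or.inl (Or.inl h4)
    · rcases h3 C hC p h4 with h5 | h5
      · exact Or.inl (Or.inr h5)
      · exact Or.inr h5)
  have e2 := card_Ed_le (k := k) hP hk h1 (noCap_union hA' h2) (by
    intro p hp
    rw [mem_union]
    rcases hc p hp with h4 | ⟨C, hC, h4⟩
    · exact Or.inr (Or.inl h4)
    · rcases h3 C hC p h4 with h5 | h5
      · exact Or.inl h5
      · exact Or.inr (Or.inr h5))
  obtain ⟨r, hr⟩ : ∃ r, #P - k - 1 = r := ⟨_, rfl⟩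
  have hr' : #P = (k + 1) + r := by omega
  rw [hr] at e1 e2 ⊢
  have e3 : 2 * #F * #P = 2 * #F * (k + 1) + 2 * #F * r := by
    rw [hr']
    ring
  rw [e3]
  rcases le_total (k + 1) r with h4 | h4
  · rw [min_eq_left h4]
    calc #(Ed P k) ≤ (c + 2 * #F) * (k + 1) + 2 * #F * r := e1
      _ = c * (k + 1) + (2 * #F * (k + 1) + 2 * #F * r) := by ring
  · rw [min_eq_right h4]
    calc #(Ed P k) ≤ 2 * #F * (k + 1) + (c + 2 * #F) * r := e2
      _ = c * r + (2 * #F * (k + 1) + 2 * #F * r) := by ring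

end Vale.Agent.P065.R2.H671
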