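import Vale.Agent.P065.R2.H671.Defs
import Vale.Agent.P065.R2.H671.Two

/-! P065: sets in convex position, caps and cups (helper671) -/

set_option autoImplicit false

namespace Vale.Agent.P065.R2.H671

open Finset Vale.Agent.P065.UB Vale.Agent.P065.U.H792.Trans

theorem InConvexPosition.mono {X C : Finset Pt} (h : InConvexPosition C) (hX : X ⊆ C) :
    InConvexPosition X := by
  intro x hx hmem
  have h1 : {y : Pt | y ∈ X ∧ y ≠ x} ⊆ {y : Pt | y ∈ C ∧ y ≠ x} :=
    fun y hy => ⟨hX hy.1, hy.2⟩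
  exact h x (hX hx) (convexHull_mono h1 hmem)

theorem isLinearMap_sh (ε : ℝ) : IsLinearMap ℝ (sh ε) := by
  constructor
  · intro x y
    unfold sh
    apply Prod.ext
    · simp only [Prod.fst_add, Prod.snd_add]
      ring
    · simp only [Prod.snd_add]
  · intro c x
    unfold sh
    apply Prod.ext
    · simp only [Prod.smul_fst, Prod.smul_snd, smul_eq_mul]
      ring
    · simp only [Prod.smul_snd]

theorem pos_shear [DecidableEq Pt] (ε : ℝ) {C : Finset Pt} (h : InConvexPosition C) :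
    InConvexPosition (C.image (sh ε)) := by
  intro x hx hmem
  obtain ⟨y, hy, rfl⟩ := mem_image.mp hx
  have h1 : {z : Pt | z ∈ C.image (sh ε) ∧ z ≠ sh ε y} ⊆ sh ε '' {u : Pt | u ∈ C ∧ u ≠ y} := by
    rintro z ⟨hz, hne⟩
    obtain ⟨u, hu, rfl⟩ := mem_image.mp hz
    exact ⟨u, ⟨hu, fun h => hne (by rw [h])⟩, rfl⟩
  have h2 := convexHull_mono (𝕜 := ℝ) h1 hmem
  rw [← (isLinearMap_sh ε).image_convexHull] at h2
  obtain ⟨w, hw, hwy⟩ := h2
  rw [sh_inj ε hwy] at hw
  exact h y hy hw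

/-- the point of the line `pq` over `x` -/
noncomputable def Lf (p q : Pt) (x : ℝ) : ℝ := p.2 + sl p q * (x - p.1)

theorem on_seg {K : Set Pt} (hK : Convex ℝ K) {p q : Pt} (hp : p ∈ K) (hq : q ∈ K)
    (h : p.1 < q.1) {x : ℝ} (h1 : p.1 ≤ x) (h2 : x ≤ q.1) : ((x, Lf p q x) : Pt) ∈ K := by
  have h3 : 0 < q.1 - p.1 := by linarith
  have ha : 0 ≤ (q.1 - x) / (q.1 - p.1) := div_nonneg (by linarith) h3.le
  have hb : 0 ≤ (x - p.1) / (q.1 - p.1) := div_nonneg (by linarith) h3.le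
  have hab : (q.1 - x) / (q.1 - p.1) + (x - p.1) / (q.1 - p.1) = 1 := by
    rw [← add_div, div_eq_one_iff_eq h3.ne']
    ring
  have h5 := hK hp hq ha hb hab
  have h6 : ((x, Lf p q x) : Pt) =
      ((q.1 - x) / (q.1 - p.1)) • p + ((x - p.1) / (q.1 - p.1)) • q := by
    have h3' := h3.ne'
    apply Prod.ext
    · simp only [Prod.fst_add, Prod.smul_fst, smul_eq_mul]
      field_simp
      ring
    · simp only [Prod.snd_add, Prod.smul_snd, smul_eq_mul, Lf, sl]
      field_simp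
      ring
  rw [h6]
  exact h5

theorem vert {K : Set Pt} (hK : Convex ℝ K) {x y1 y2 y : ℝ} (h1 : ((x, y1) : Pt) ∈ K)
    (h2 : ((x, y2) : Pt) ∈ K) (h3 : y1 ≤ y) (h4 : y ≤ y2) : ((x, y) : Pt) ∈ K := by
  rcases eq_or_lt_of_le (h3.trans h4) with h | h
  · have : y = y1 := by linarith
    rw [this]
    exact h1
  · have h0 : 0 < y2 - y1 := by linarith
    have ha : 0 ≤ (y2 - y) / (y2 - y1) := div_nonneg (by linarith) h0.le
    have hb : 0 ≤ (y - y1) / (y2 - y1) := div_nonneg (by linarith) h0.le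
    have hab : (y2 - y) / (y2 - y1) + (y - y1) / (y2 - y1) = 1 := by
      rw [← add_div, div_eq_one_iff_eq h0.ne']
      ring
    have h5 := hK h1 h2 ha hb hab
    have h6 : ((x, y) : Pt) = ((y2 - y) / (y2 - y1)) • ((x, y1) : Pt) +
        ((y - y1) / (y2 - y1)) • ((x, y2) : Pt) := by
      have h0' := h0.ne'
      apply Prod.ext
      · simp only [Prod.fst_add, Prod.smul_fst, smul_eq_mul]
        rw [← add_mul, hab, one_mul]
      · simp only [Prod.snd_add, Prod.smul_snd, smul_eq_mul]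
        field_simp
        ring
    rw [h6]
    exact h5

theorem le_Lf {u v w : Pt} (h1 : u.1 < v.1) (h2 : v.1 < w.1) (h : sl u v ≤ sl v w) :
    v.2 ≤ Lf u w v.1 := by
  unfold sl at h
  rw [div_le_div_iff₀ (by linarith) (by linarith)] at h
  unfold Lf sl
  have h3 : v.2 - u.2 ≤ (w.2 - u.2) / (w.1 - u.1) * (v.1 - u.1) := by
    rw [div_mul_eq_mul_div, le_div_iff₀ (by linarith)]
    nlinarith [h]
  linarith

theorem Lf_le {u v w : Pt} (h1 : u.1 < v.1) (h2 : v.1 < w.1) (h : sl v w ≤ sl u v) :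
    Lf u w v.1 ≤ v.2 := by
  unfold sl at h
  rw [div_le_div_iff₀ (by linarith) (by linarith)] at h
  unfold Lf sl
  have h3 : (w.2 - u.2) / (w.1 - u.1) * (v.1 - u.1) ≤ v.2 - u.2 := by
    rw [div_mul_eq_mul_div, div_le_iff₀ (by linarith)]
    nlinarith [h]
  linarith

/-- **a set in convex position is a cap and a cup** -/
theorem split_pos {C : Finset Pt} (hx : ∀ p ∈ C, ∀ q ∈ C, p.1 = q.1 → p = q)
    (hC : InConvexPosition C) :
    ∃ U V : Finset Pt, NoCup U 2 ∧ NoCap V 2 ∧ ∀ p ∈ C, p ∈ U ∨ p ∈ V := by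
  classical
  rcases C.eq_empty_or_nonempty with h0 | h0
  · refine ⟨∅, ∅, ?_, ?_, ?_⟩
    · intro X hX _
      rw [subset_empty.mp hX]
      simp
    · intro X hX _
      rw [subset_empty.mp hX]
      simp
    · rw [h0]
      simp
  obtain ⟨p, hp, hpmin⟩ := exists_min_image C (fun z => z.1) h0
  obtain ⟨q, hq, hqmax⟩ := exists_max_image C (fun z => z.1) h0
  rcases eq_or_lt_of_le (hpmin q hq) with hpq | hpq
  · refine ⟨C, ∅, ?_, ?_, fun z hz => Or.inl hz⟩
    · intro X hX _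
      apply card_le_two (fun a ha b hb => hx a (hX ha) b (hX hb))
      intro u hu v hv w _ huv _
      have h1 := hpmin u (hX hu)
      have h2 := hqmax v (hX hv)
      linarith
    · intro X hX _
      rw [subset_empty.mp hX]
      simp
  have hpq' : p.1 < q.1 := hpq
  refine ⟨{v ∈ C | Lf p q v.1 ≤ v.2}, {v ∈ C | v.2 ≤ Lf p q v.1}, ?_, ?_, ?_⟩
  · apply noCup_of_cap (fun a ha b hb => hx a (mem_filter.mp ha).1 b (mem_filter.mp hb).1)
    intro u hu v hv w hw huv hvw
    obtain ⟨hu1, _⟩ := mem_filter.mp hu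
    obtain ⟨hv1, hv2⟩ := mem_filter.mp hv
    obtain ⟨hw1, _⟩ := mem_filter.mp hw
    by_contra hcon
    push Not at hcon
    have h1 := le_Lf huv hvw hcon
    have hK := convex_convexHull ℝ {y : Pt | y ∈ C ∧ y ≠ v}
    have hpu : p.1 ≤ u.1 := hpmin u hu1
    have hwq : w.1 ≤ q.1 := hqmax w hw1
    have hin : ∀ z ∈ C, z.1 ≠ v.1 → z ∈ convexHull ℝ {y : Pt | y ∈ C ∧ y ≠ v} := fun z hz hzv =>
      subset_convexHull ℝ _ ⟨hz, fun h => hzv (by rw [h])⟩
    have h2 := on_seg hK (hin p hp (by linarith : p.1 < v.1).ne)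
      (hin q hq (by linarith : v.1 < q.1).ne') hpq' (x := v.1) (by linarith) (by linarith)
    have h3 := on_seg hK (hin u hu1 huv.ne) (hin w hw1 hvw.ne') (by linarith : u.1 < w.1)
      (x := v.1) huv.le hvw.le
    exact hC v hv1 (vert hK h2 h3 hv2 h1)
  · apply noCap_of_cup (fun a ha b hb => hx a (mem_filter.mp ha).1 b (mem_filter.mp hb).1)
    intro u hu v hv w hw huv hvw
    obtain ⟨hu1, _⟩ := mem_filter.mp hu
    obtain ⟨hv1, hv2⟩ := mem_filter.mp hv
    obtain ⟨hw1, _⟩ := mem_filter.mp hw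
    by_contra hcon
    push Not at hcon
    have h1 := Lf_le huv hvw hcon
    have hK := convex_convexHull ℝ {y : Pt | y ∈ C ∧ y ≠ v}
    have hpu : p.1 ≤ u.1 := hpmin u hu1
    have hwq : w.1 ≤ q.1 := hqmax w hw1
    have hin : ∀ z ∈ C, z.1 ≠ v.1 → z ∈ convexHull ℝ {y : Pt | y ∈ C ∧ y ≠ v} := fun z hz hzv =>
      subset_convexHull ℝ _ ⟨hz, fun h => hzv (by rw [h])⟩
    have h2 := on_seg hK (hin p hp (by linarith : p.1 < v.1).ne)
      (hin q hq (by linarith : v.1 < q.1).ne') hpq' (x := v.1) (by linarith) (by linarith)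
    have h3 := on_seg hK (hin u hu1 huv.ne) (hin w hw1 hvw.ne') (by linarith : u.1 < w.1)
      (x := v.1) huv.le hvw.le
    exact hC v hv1 (vert hK h3 h2 h1 hv2)
  · intro z hz
    rcases le_total (Lf p q z.1) z.2 with h | h
    · exact Or.inl (mem_filter.mpr ⟨hz, h⟩)
    · exact Or.inr (mem_filter.mpr ⟨hz, h⟩)

theorem isLinearMap_ht (m : ℝ) : IsLinearMap ℝ (ht m) := by
  constructor
  · intro x y
    unfold ht
    simp only [Prod.fst_add, Prod.snd_add]
    ring
  · intro c x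
    unfold ht
    simp only [Prod.smul_fst, Prod.smul_snd, smul_eq_mul]
    ring

/-- cups are in convex position -/
theorem pos_of_cup {X : Finset Pt} (hx : ∀ p ∈ X, ∀ q ∈ X, p.1 = q.1 → p = q) (hc : Cup X) :
    InConvexPosition X := by
  classical
  intro v hv hmem
  obtain ⟨m, hm1, hm2⟩ := Order.exists_between_finsets
    (({u ∈ X | u.1 < v.1} : Finset Pt).image (fun u => sl u v))
    (({w ∈ X | v.1 < w.1} : Finset Pt).image (fun w => sl v w)) (by
      intro a ha b hb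
      obtain ⟨u, hu, rfl⟩ := mem_image.mp ha
      obtain ⟨w, hw, rfl⟩ := mem_image.mp hb
      obtain ⟨hu1, hu2⟩ := mem_filter.mp hu
      obtain ⟨hw1, hw2⟩ := mem_filter.mp hw
      exact hc u hu1 v hv w hw1 hu2 hw2)
  have hsub : {y : Pt | y ∈ X ∧ y ≠ v} ⊆ {z : Pt | ht m v < ht m z} := by
    rintro y ⟨hy, hne⟩
    rcases lt_trichotomy y.1 v.1 with h | h | h
    · exact (ht_lt_iff_right h m).mpr (hm1 _ (mem_image.mpr ⟨y, mem_filter.mpr ⟨hy, h⟩, rfl⟩))
    · exact absurd (hx y hy v hv h) hne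
    · refine (ht_lt_iff_left h m).mpr ?_
      rw [sl_comm]
      exact hm2 _ (mem_image.mpr ⟨y, mem_filter.mpr ⟨hy, h⟩, rfl⟩)
  have h1 : ht m v < ht m v :=
    convexHull_min hsub (convex_halfSpace_gt (isLinearMap_ht m) (ht m v)) hmem
  exact lt_irrefl _ h1

/-- caps are in convex position -/
theorem pos_of_cap {X : Finset Pt} (hx : ∀ p ∈ X, ∀ q ∈ X, p.1 = q.1 → p = q) (hc : Cap X) :
    InConvexPosition X := by
  classical
  intro v hv hmem
  obtain ⟨m, hm1, hm2⟩ := Order.exists_between_finsets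
    (({w ∈ X | v.1 < w.1} : Finset Pt).image (fun w => sl v w))
    (({u ∈ X | u.1 < v.1} : Finset Pt).image (fun u => sl u v)) (by
      intro a ha b hb
      obtain ⟨w, hw, rfl⟩ := mem_image.mp ha
      obtain ⟨u, hu, rfl⟩ := mem_image.mp hb
      obtain ⟨hu1, hu2⟩ := mem_filter.mp hu
      obtain ⟨hw1, hw2⟩ := mem_filter.mp hw
      exact hc u hu1 v hv w hw1 hu2 hw2)
  have hsub : {y : Pt | y ∈ X ∧ y ≠ v} ⊆ {z : Pt | ht m z < ht m v} := by
    rintro y ⟨hy, hne⟩
    rcases lt_trichotomy y.1 v.1 with h | h | h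
    · refine (ht_lt_iff_left h m).mpr ?_
      rw [sl_comm]
      exact hm2 _ (mem_image.mpr ⟨y, mem_filter.mpr ⟨hy, h⟩, rfl⟩)
    · exact absurd (hx y hy v hv h) hne
    · exact (ht_lt_iff_right h m).mpr (hm1 _ (mem_image.mpr ⟨y, mem_filter.mpr ⟨hy, h⟩, rfl⟩))
  have h1 : ht m v < ht m v :=
    convexHull_min hsub (convex_halfSpace_lt (isLinearMap_ht m) (ht m v)) hmem
  exact lt_irrefl _ h1

/-- the main estimate for good sets, in terms of convex position -/
theorem card_Ed_pos [DecidableEq Pt] {P : Finset Pt} {k : ℕ} (hP : Good P) (hk : k + 2 ≤ #P)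
    (A : Finset Pt) (F : Finset (Finset Pt)) (c : ℕ)
    (hA : ∀ X, X ⊆ A → InConvexPosition X → #X ≤ c) (hF : ∀ C ∈ F, InConvexPosition C)
    (hc : ∀ p ∈ P, p ∈ A ∨ ∃ C ∈ F, p ∈ C) :
    #(Ed P k) ≤ c * min (k + 1) (#P - k - 1) + 2 * #F * #P := by
  classical
  have hx : ∀ S : Finset Pt, S ⊆ P → ∀ p ∈ S, ∀ q ∈ S, p.1 = q.1 → p = q :=
    fun S hS p hp q hq => hP.xinj p (hS hp) q (hS hq)
  obtain ⟨G, hG⟩ : ∃ G : Finset (Finset Pt), G = F.image (fun C => C ∩ P) := ⟨_, rfl⟩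
  have h1 : #G ≤ #F := by
    rw [hG]
    exact card_image_le
  have h2 := card_Ed_family (k := k) hP hk (A ∩ P) G c
    (fun X hX hcup => hA X (hX.trans inter_subset_left)
      (pos_of_cup (hx X (hX.trans inter_subset_right)) hcup))
    (fun X hX hcap => hA X (hX.trans inter_subset_left)
      (pos_of_cap (hx X (hX.trans inter_subset_right)) hcap))
    (by
      intro C hC
      rw [hG] at hC
      obtain ⟨D, hD, rfl⟩ := mem_image.mp hC
      exact split_pos (hx _ inter_subset_right) ((hF D hD).mono inter_subset_left))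
    (by
      intro p hp
      rcases hc p hp with h | ⟨C, hC, h⟩
      · exact Or.inl (mem_inter.mpr ⟨h, hp⟩)
      · refine Or.inr ⟨C ∩ P, ?_, mem_inter.mpr ⟨h, hp⟩⟩
        rw [hG]
        exact mem_image_of_mem _ hC)
  refine h2.trans (Nat.add_le_add_left (Nat.mul_le_mul_right _ ?_) _)
  omega

end Vale.Agent.P065.R2.H671
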