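import Vale.Agent.P065.R2.H671.CellS
import Vale.Agent.P065.R2.H671.Greedy

/-! P065: edges and a set of exceptional points (helper671) -/

set_option autoImplicit false

namespace Vale.Agent.P065.R2.H671

open Finset Vale.Agent.P065 Vale.Agent.P065.UB Vale.Agent.P065.U.H792.Trans

variable {P : Finset Pt} {k : ℕ}

theorem snd_inj (hP : Good P) {e f : Eg} (he : e ∈ Ed P k) (hf : f ∈ Ed P k)
    (hr : root P k P Set.univ e = root P k P Set.univ f) (h : e.2 = f.2) : e = f := by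
  rcases compar (P := P) (k := k) (Q := P) (I := Set.univ) hP hr with h1 | h1 | h1
  · exact h1
  · have h2 := h1.range
    have h3 := (mem_Ed.mp hf).2.2.1
    rw [h] at h2
    linarith
  · have h2 := h1.range
    have h3 := (mem_Ed.mp he).2.2.1
    rw [← h] at h2
    linarith

/-- **edges whose right end is in `A`** -/
theorem card_snd (hP : Good P) {A : Finset Pt} {c : ℕ} (hA : NoCup A c) [DecidableEq Pt] :
    #{e ∈ Ed P k | e.2 ∈ A} ≤ c * (k + 1) := by
  classical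
  have h1 : ∀ e ∈ ({e ∈ Ed P k | e.2 ∈ A} : Finset Eg),
      root P k P Set.univ e ∈ Pcs P k P Set.univ := fun e he =>
    root_mem_Pcs (mem_EdIn_univ.mpr (mem_filter.mp he).1)
  rw [card_eq_sum_card_fiberwise h1]
  calc ∑ a ∈ Pcs P k P Set.univ,
        #{e ∈ ({e ∈ Ed P k | e.2 ∈ A} : Finset Eg) | root P k P Set.univ e = a}
      ≤ ∑ a ∈ Pcs P k P Set.univ, c := by
        apply sum_le_sum
        intro a _
        refine le_trans ?_ (hA ({v ∈ Vx P k a | v ∈ A}) (fun v hv => (mem_filter.mp hv).2)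
          ((cup_Vx hP a).mono (filter_subset _ _)))
        apply card_le_card_of_injOn (fun e => e.2)
        · intro e he
          obtain ⟨h2, h3⟩ := mem_filter.mp (mem_coe.mp he)
          obtain ⟨h4, h5⟩ := mem_filter.mp h2
          exact mem_coe.mpr (mem_filter.mpr ⟨mem_Vx.mpr ⟨(mem_Ed.mp h4).2.1, e, h4, h3,
            Or.inr rfl⟩, h5⟩)
        · intro e he f hf hef
          obtain ⟨h2, h3⟩ := mem_filter.mp (mem_coe.mp he)
          obtain ⟨h4, h5⟩ := mem_filter.mp (mem_coe.mp hf)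
          exact snd_inj hP (mem_filter.mp h2).1 (mem_filter.mp h4).1 (h3.trans h5.symm) hef
    _ = #(Pcs P k P Set.univ) * c := by rw [sum_const, smul_eq_mul]
    _ ≤ (k + 1) * c := Nat.mul_le_mul_right _ (card_Pcs_le hP)
    _ = c * (k + 1) := Nat.mul_comm _ _

/-- **edges whose right end is in a set without large caps** -/
theorem card_snd_cap (hP : Good P) (hk : k + 2 ≤ #P) {B : Finset Pt} {b : ℕ} (hB : NoCap B b)
    [DecidableEq Pt] : #{e ∈ Ed P k | e.2 ∈ B} ≤ b * (#P - k - 1) := by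
  classical
  have h1 := card_snd (k := #P - k - 2) (good_mir hP) (noCup_mir hB)
  have h2 : #P - k - 2 + 1 = #P - k - 1 := by omega
  rw [h2] at h1
  refine le_trans ?_ h1
  apply card_le_card_of_injOn (fun e => (mir e.1, mir e.2))
  · intro e he
    obtain ⟨h3, h4⟩ := mem_filter.mp (mem_coe.mp he)
    have h5 : e ∈ Ed P (#P - (#P - k - 2) - 2) := by
      have : #P - (#P - k - 2) - 2 = k := by omega
      rw [this]
      exact h3
    exact mem_coe.mpr (mem_filter.mpr ⟨mir_mem_Ed hP (by omega) h5, mem_image_of_mem mir h4⟩)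
  · intro e _ e' _ h
    obtain ⟨h1, h2⟩ := Prod.mk.inj h
    exact Prod.ext (mir_inj h1) (mir_inj h2)

/-- the main estimate with exceptional points -/
theorem card_Ed_exc (hP : Good P) (hk : k + 2 ≤ #P) {A B D : Finset Pt} {a b : ℕ}
    (hA : NoCup A a) (hB : NoCap B b) (hAB : ∀ p ∈ P, p ∈ A ∨ p ∈ B ∨ p ∈ D) :
    (#(Ed P k) : ℝ) ≤ 2 * ((a * (k + 1) + b * (#P - k - 1) : ℕ) : ℝ) +
      104 * ((#D : ℝ) * #P) ^ (2 / 3 : ℝ) := by
  classical
  obtain ⟨S1, hS1⟩ : ∃ S : Finset Eg, S = ({e ∈ Ed P k | e.1 ∈ A} : Finset Eg) := ⟨_, rfl⟩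
  obtain ⟨S2, hS2⟩ : ∃ S : Finset Eg, S = ({e ∈ Ed P k | e.1 ∈ B} : Finset Eg) := ⟨_, rfl⟩
  obtain ⟨S3, hS3⟩ : ∃ S : Finset Eg, S = ({e ∈ Ed P k | e.2 ∈ A} : Finset Eg) := ⟨_, rfl⟩
  obtain ⟨S4, hS4⟩ : ∃ S : Finset Eg, S = ({e ∈ Ed P k | e.2 ∈ B} : Finset Eg) := ⟨_, rfl⟩
  obtain ⟨S5, hS5⟩ : ∃ S : Finset Eg, S = ({e ∈ Ed P k | e.1 ∈ D ∧ e.2 ∈ D} : Finset Eg) :=
    ⟨_, rfl⟩
  have h1 : #S1 ≤ a * (k + 1) := by
    rw [hS1]
    convert card_fst (k := k) hP hA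
  have h2 : #S2 ≤ b * (#P - k - 1) := by
    rw [hS2]
    convert card_fst_cap (k := k) hP hk hB
  have h3 : #S3 ≤ a * (k + 1) := by
    rw [hS3]
    convert card_snd (k := k) hP hA
  have h4 : #S4 ≤ b * (#P - k - 1) := by
    rw [hS4]
    convert card_snd_cap (k := k) hP hk hB
  have h5 : (#S5 : ℝ) ≤ 104 * ((#D : ℝ) * #P) ^ (2 / 3 : ℝ) := by
    rw [hS5]
    convert card_inside (k := k) hP D
  have h6 : Ed P k ⊆ ((S1 ∪ S2) ∪ (S3 ∪ S4)) ∪ S5 := by
    intro e he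
    have g1 := mem_Ed.mp he
    simp only [mem_union, hS1, hS2, hS3, hS4, hS5, mem_filter]
    rcases hAB e.1 g1.1 with h | h | h
    · exact Or.inl (Or.inl (Or.inl ⟨he, h⟩))
    · exact Or.inl (Or.inl (Or.inr ⟨he, h⟩))
    · rcases hAB e.2 g1.2.1 with h' | h' | h'
      · exact Or.inl (Or.inr (Or.inl ⟨he, h'⟩))
      · exact Or.inl (Or.inr (Or.inr ⟨he, h'⟩))
      · exact Or.inr ⟨he, h, h'⟩
  have h7 : #(Ed P k) ≤ 2 * (a * (k + 1) + b * (#P - k - 1)) + #S5 := by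
    have g1 := card_le_card h6
    have g2 := card_union_le ((S1 ∪ S2) ∪ (S3 ∪ S4)) S5
    have g3 := card_union_le (S1 ∪ S2) (S3 ∪ S4)
    have g4 := card_union_le S1 S2
    have g5 := card_union_le S3 S4
    omega
  have h8 : (#(Ed P k) : ℝ) ≤ 2 * ((a * (k + 1) + b * (#P - k - 1) : ℕ) : ℝ) + #S5 := by
    exact_mod_cast h7
  linarith

/-- the two dimensional data in vertical position, with exceptional points -/
theorem dir_data_exc {P : Finset Pt} (hg : GenPos P) {u : Pt} (hu : u ≠ 0) (hP : Trv u P)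
    (A B D : Finset Pt) (a b : ℕ) (hA : ∀ X, X ⊆ A → IsCup u X → #X ≤ a)
    (hB : ∀ X, X ⊆ B → IsCup (-u) X → #X ≤ b) (hc : ∀ p ∈ P, p ∈ A ∨ p ∈ B ∨ p ∈ D) :
    ∃ α β γ δ : ℝ, α * δ - β * γ = 1 ∧ Good (P.image (lm α β γ δ)) ∧
      ∀ k, k + 2 ≤ #P → (#(Ed (P.image (lm α β γ δ)) k) : ℝ) ≤
        2 * ((a * (k + 1) + b * (#P - k - 1) : ℕ) : ℝ) +
          104 * ((#D : ℝ) * #P) ^ (2 / 3 : ℝ) := by
  classical
  obtain ⟨α, β, γ, δ, hdet, huv, hx⟩ := exists_lm hu hP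
  have hG := good_lm hdet hg hx
  refine ⟨α, β, γ, δ, hdet, hG, ?_⟩
  intro k hk
  have hcard : #(P.image (lm α β γ δ)) = #P := card_image_of_injective _ (lm_inj hdet)
  -- subsets of an image are images
  have hpull : ∀ (S X : Finset Pt), X ⊆ (S ∩ P).image (lm α β γ δ) →
      ∃ Y, Y ⊆ S ∧ X = Y.image (lm α β γ δ) ∧ #X = #Y ∧
        ∀ p ∈ X, ∀ q ∈ X, p.1 = q.1 → p = q := by
    intro S X hX
    obtain ⟨Y, hY, rfl⟩ := Finset.subset_image_iff.mp hX
    refine ⟨Y, hY.trans inter_subset_left, rfl, card_image_of_injective _ (lm_inj hdet), ?_⟩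
    intro p hp q hq h
    have hs : Y.image (lm α β γ δ) ⊆ P.image (lm α β γ δ) :=
      image_subset_image (hY.trans inter_subset_right)
    exact hG.xinj p (hs hp) q (hs hq) h
  have h1 := card_Ed_exc (k := k) hG (by rw [hcard]; exact hk)
    (A := (A ∩ P).image (lm α β γ δ)) (B := (B ∩ P).image (lm α β γ δ))
    (D := D.image (lm α β γ δ)) (a := a) (b := b)
    (by
      intro X hX hcup
      obtain ⟨Y, hY, e, hXY, hxx⟩ := hpull A X hX
      have h2 := isCup_of_cup hxx hcup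
      rw [e, ← huv] at h2
      rw [hXY]
      exact hA Y hY (h2.pull hdet))
    (by
      intro X hX hcap
      obtain ⟨Y, hY, e, hXY, hxx⟩ := hpull B X hX
      have h2 := isCup_of_cap hxx hcap
      have e2 : ((0, -1) : Pt) = lm α β γ δ (-u) := by
        have e3 : lm α β γ δ (-u) = - lm α β γ δ u := isLinearMap_lm.map_neg u
        rw [e3, huv]
        simp
      rw [e, e2] at h2
      rw [hXY]
      exact hB Y hY (h2.pull hdet))
    (by
      intro p hp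
      obtain ⟨p0, hp0, rfl⟩ := mem_image.mp hp
      rcases hc p0 hp0 with h | h | h
      · exact Or.inl (mem_image_of_mem _ (mem_inter.mpr ⟨h, hp0⟩))
      · exact Or.inr (Or.inl (mem_image_of_mem _ (mem_inter.mpr ⟨h, hp0⟩)))
      · exact Or.inr (Or.inr (mem_image_of_mem _ h)))
  rw [hcard, card_image_of_injective D (lm_inj hdet)] at h1
  exact h1

/-- **halving lines** -/
theorem halving_exc {P : Finset Pt} (hg : GenPos P) {u : Pt} (hu : u ≠ 0) (hP : Trv u P)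
    (A B D : Finset Pt) (a b : ℕ) (hA : ∀ X, X ⊆ A → IsCup u X → #X ≤ a)
    (hB : ∀ X, X ⊆ B → IsCup (-u) X → #X ≤ b) (hc : ∀ p ∈ P, p ∈ A ∨ p ∈ B ∨ p ∈ D) :
    (halvingNumber P : ℝ) ≤ (a + b) * #P + 104 * ((#D : ℝ) * #P) ^ (2 / 3 : ℝ) := by
  classical
  by_cases hz : halvingNumber P = 0
  · rw [hz]
    have : (0 : ℝ) ≤ ((#D : ℝ) * #P) ^ (2 / 3 : ℝ) := by positivity
    have h2 : (0 : ℝ) ≤ ((a : ℝ) + b) * #P := by positivity
    simp only [Nat.cast_zero]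
    linarith
  have hev : ∃ r, #P = 2 * r + 2 := by
    unfold halvingNumber at hz
    obtain ⟨e, he⟩ := card_pos.mp (Nat.pos_of_ne_zero hz)
    obtain ⟨_, x, y, _, hxy⟩ := mem_filter.mp he
    exact ⟨_, hxy.2.1.symm⟩
  obtain ⟨r, hr⟩ := hev
  obtain ⟨α, β, γ, δ, hdet, hG, hE⟩ := dir_data_exc hg hu hP A B D a b hA hB hc
  have h1 := halvingNumber_lm hdet P
  have h2 := halvingNumber_le hG
  have hcard : #(P.image (lm α β γ δ)) = #P := card_image_of_injective _ (lm_inj hdet)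
  rw [hcard] at h2
  have h3 : (#P - 2) / 2 = r := by omega
  rw [h3] at h2
  have h4 := hE r (by omega)
  have h5 : #P - r - 1 = r + 1 := by omega
  rw [h5] at h4
  have h6 : (halvingNumber P : ℝ) ≤ #(Ed (P.image (lm α β γ δ)) r) := by
    exact_mod_cast h1.trans h2
  have h7 : 2 * ((a * (r + 1) + b * (r + 1) : ℕ) : ℝ) = (a + b) * (#P : ℝ) := by
    rw [hr]
    push_cast
    ring
  rw [h7] at h4
  exact h6.trans h4

/-- **`k`-sets** -/
theorem kset_exc {P : Finset Pt} (hg : GenPos P) {u : Pt} (hu : u ≠ 0) (hP : Trv u P)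
    (A B D : Finset Pt) (a b : ℕ) (hA : ∀ X, X ⊆ A → IsCup u X → #X ≤ a)
    (hB : ∀ X, X ⊆ B → IsCup (-u) X → #X ≤ b) (hc : ∀ p ∈ P, p ∈ A ∨ p ∈ B ∨ p ∈ D)
    {k : ℕ} (hk1 : 1 ≤ k) (hk2 : k + 1 ≤ #P) :
    (kSetNumber P k : ℝ) ≤
      2 * ((a + b) * #P + 104 * ((#D : ℝ) * #P) ^ (2 / 3 : ℝ)) + 2 := by
  classical
  obtain ⟨j, rfl⟩ : ∃ j, k = j + 1 := ⟨k - 1, by omega⟩
  obtain ⟨α, β, γ, δ, hdet, hG, hE⟩ := dir_data_exc hg hu hP A B D a b hA hB hc
  have hcard : #(P.image (lm α β γ δ)) = #P := card_image_of_injective _ (lm_inj hdet)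
  have h1 := kSetNumber_lm hdet P (j + 1)
  have h2 := kSetNumber_le hG (k := j) (by rw [hcard]; omega)
  rw [hcard] at h2
  have h3 := hE j (by omega)
  have h4 := hE (#P - j - 2) (by omega)
  obtain ⟨i, hi⟩ : ∃ i, #P = j + 1 + (i + 1) := ⟨#P - j - 2, by omega⟩
  have e1 : #P - j - 1 = i + 1 := by omega
  have e2 : #P - j - 2 + 1 = i + 1 := by omega
  have e3 : #P - (#P - j - 2) - 1 = j + 1 := by omega
  rw [e1] at h3
  rw [e2, e3] at h4
  have h7 : (kSetNumber P (j + 1) : ℝ) ≤ #(Ed (P.image (lm α β γ δ)) j) +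
      #(Ed (P.image (lm α β γ δ)) (#P - j - 2)) + 2 := by
    exact_mod_cast h1.trans h2
  have h8 : 2 * ((a * (j + 1) + b * (i + 1) : ℕ) : ℝ) + 2 * ((a * (i + 1) + b * (j + 1) : ℕ) : ℝ)
      = 2 * ((a + b) * (#P : ℝ)) := by
    rw [hi]
    push_cast
    ring
  linarith

/-- **the staircase**, exceptional points form -/
theorem stairs_exc {P : Finset Pt} {u : Pt} (hg : GenPos P) (hu : u ≠ 0) (hP : Trv u P)
    (σ : ℕ → Bool) (j : ℕ) :
    (halvingNumber P : ℝ) ≤ #(pc σ u P j) * #P +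
        104 * ((∑ i ∈ range j, #(pc σ u P i) : ℕ) * (#P : ℝ)) ^ (2 / 3 : ℝ) ∧
      ∀ k, 1 ≤ k → k + 1 ≤ #P → (kSetNumber P k : ℝ) ≤ 2 * (#(pc σ u P j) * #P +
        104 * ((∑ i ∈ range j, #(pc σ u P i) : ℕ) * (#P : ℝ)) ^ (2 / 3 : ℝ)) + 2 := by
  classical
  have hmax : ∀ X, X ⊆ P \ used σ u P j → IsCup (dr (σ j) u) X → #X ≤ #(pc σ u P j) :=
    mx_max _ _
  have hemp : ∀ w : Pt, ∀ X : Finset Pt, X ⊆ ∅ → IsCup w X → #X ≤ 0 := by
    intro w X hX _
    rw [subset_empty.mp hX, card_empty]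
  have hD : #(used σ u P j) ≤ ∑ i ∈ range j, #(pc σ u P i) := by
    have h1 : used σ u P j ⊆ (range j).biUnion (pc σ u P) := by
      intro x hx
      obtain ⟨i, hi, hx'⟩ := mem_used.mp hx
      exact mem_biUnion.mpr ⟨i, mem_range.mpr hi, hx'⟩
    exact (card_le_card h1).trans card_biUnion_le
  have hmono : 104 * ((#(used σ u P j) : ℝ) * #P) ^ (2 / 3 : ℝ) ≤
      104 * ((∑ i ∈ range j, #(pc σ u P i) : ℕ) * (#P : ℝ)) ^ (2 / 3 : ℝ) := by
    apply mul_le_mul_of_nonneg_left _ (by norm_num)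
    apply Real.rpow_le_rpow (by positivity) _ (by norm_num)
    apply mul_le_mul_of_nonneg_right _ (Nat.cast_nonneg _)
    exact_mod_cast hD
  have hmem : ∀ p ∈ P, p ∈ P \ used σ u P j ∨ p ∈ used σ u P j := by
    intro p hp
    by_cases h : p ∈ used σ u P j
    · exact Or.inr h
    · exact Or.inl (mem_sdiff.mpr ⟨hp, h⟩)
  by_cases hs : σ j = true
  · have hd : dr (σ j) u = u := by
      unfold dr
      rw [if_pos hs]
    rw [hd] at hmax
    have hc : ∀ p ∈ P, p ∈ P \ used σ u P j ∨ p ∈ (∅ : Finset Pt) ∨ p ∈ used σ u P j := by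
      intro p hp
      rcases hmem p hp with h | h
      · exact Or.inl h
      · exact Or.inr (Or.inr h)
    refine ⟨?_, ?_⟩
    · have h1 := halving_exc hg hu hP _ _ _ _ _ hmax (hemp (-u)) hc
      simp only [Nat.cast_zero, add_zero] at h1
      linarith
    · intro k hk1 hk2
      have h1 := kset_exc hg hu hP _ _ _ _ _ hmax (hemp (-u)) hc hk1 hk2
      simp only [Nat.cast_zero, add_zero] at h1
      linarith
  · have hd : dr (σ j) u = -u := by
      unfold dr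
      rw [if_neg hs]
    rw [hd] at hmax
    have hc : ∀ p ∈ P, p ∈ (∅ : Finset Pt) ∨ p ∈ P \ used σ u P j ∨ p ∈ used σ u P j := by
      intro p hp
      rcases hmem p hp with h | h
      · exact Or.inr (Or.inl h)
      · exact Or.inr (Or.inr h)
    refine ⟨?_, ?_⟩
    · have h1 := halving_exc hg hu hP _ _ _ _ _ (hemp u) hmax hc
      simp only [Nat.cast_zero, zero_add] at h1
      linarith
    · intro k hk1 hk2
      have h1 := kset_exc hg hu hP _ _ _ _ _ (hemp u) hmax hc hk1 hk2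
      simp only [Nat.cast_zero, zero_add] at h1
      linarith

end Vale.Agent.P065.R2.H671
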